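import Mathlib

namespace Vale.Agent.P335

open Finset

section Avg
variable {Ω : Type*} [Fintype Ω]

/-- plain inner product -/
def ip (f g : Ω → ℝ) : ℝ := ∑ x, f x * g x

lemma ip_comm (f g : Ω → ℝ) : ip f g = ip g f := by
  unfold ip; exact Finset.sum_congr rfl fun x _ => mul_comm _ _

lemma ip_add_left (f g h : Ω → ℝ) : ip (f + g) h = ip f h + ip g h := by
  unfold ip; rw [← Finset.sum_add_distrib]; exact Finset.sum_congr rfl fun x _ => by simp [add_mul]

lemma ip_add_right (f g h : Ω → ℝ) : ip h (f + g) = ip h f + ip h g := by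
  rw [ip_comm, ip_add_left, ip_comm f, ip_comm g]

lemma ip_sub_left (f g h : Ω → ℝ) : ip (f - g) h = ip f h - ip g h := by
  unfold ip; rw [← Finset.sum_sub_distrib]; exact Finset.sum_congr rfl fun x _ => by simp [sub_mul]

lemma ip_sub_right (f g h : Ω → ℝ) : ip h (f - g) = ip h f - ip h g := by
  rw [ip_comm, ip_sub_left, ip_comm f, ip_comm g]

lemma ip_smul_left (c : ℝ) (f h : Ω → ℝ) : ip (c • f) h = c * ip f h := by
  unfold ip; rw [Finset.mul_sum]; exact Finset.sum_congr rfl fun x _ => by simp [mul_assoc]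

lemma ip_smul_right (c : ℝ) (f h : Ω → ℝ) : ip h (c • f) = c * ip h f := by
  rw [ip_comm, ip_smul_left, ip_comm]

lemma ip_zero_left (h : Ω → ℝ) : ip 0 h = 0 := by simp [ip]

lemma ip_zero_right (h : Ω → ℝ) : ip h 0 = 0 := by simp [ip]

lemma ip_sum_left {I : Type*} (s : Finset I) (f : I → Ω → ℝ) (h : Ω → ℝ) :
    ip (∑ i ∈ s, f i) h = ∑ i ∈ s, ip (f i) h := by
  unfold ip; rw [Finset.sum_comm]; exact Finset.sum_congr rfl fun x _ => by
    simp [Finset.sum_mul]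

lemma ip_sum_right {I : Type*} (s : Finset I) (f : I → Ω → ℝ) (h : Ω → ℝ) :
    ip h (∑ i ∈ s, f i) = ∑ i ∈ s, ip h (f i) := by
  rw [ip_comm, ip_sum_left]; exact Finset.sum_congr rfl fun x _ => ip_comm _ _

lemma ip_self_nonneg (f : Ω → ℝ) : 0 ≤ ip f f :=
  Finset.sum_nonneg fun _ _ => mul_self_nonneg _

lemma ip_self_eq_zero {f : Ω → ℝ} (h : ip f f = 0) : f = 0 := by
  funext x
  have := (Finset.sum_eq_zero_iff_of_nonneg (fun x _ => mul_self_nonneg (f x))).1 h x (mem_univ _)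
  simpa using this

lemma ip_ext {f g : Ω → ℝ} (h : ∀ k, ip f k = ip g k) : f = g := by
  have : ip (f - g) (f - g) = 0 := by rw [ip_sub_left, h, sub_self]
  exact sub_eq_zero.1 (ip_self_eq_zero this)

open Classical in
/-- the class of a point -/
noncomputable def cl (s : Setoid Ω) (x : Ω) : Finset Ω := univ.filter (fun y => s.r y x)

lemma mem_cl {s : Setoid Ω} {x y : Ω} : y ∈ cl s x ↔ s.r y x := by simp [cl]

lemma self_mem_cl (s : Setoid Ω) (x : Ω) : x ∈ cl s x := mem_cl.2 (s.refl' x)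

lemma cl_card_pos (s : Setoid Ω) (x : Ω) : (0 : ℝ) < (cl s x).card := by
  exact_mod_cast Finset.card_pos.2 ⟨x, self_mem_cl s x⟩

lemma cl_congr {s : Setoid Ω} {x y : Ω} (h : s.r x y) : cl s x = cl s y := by
  ext z; simp only [mem_cl]
  exact ⟨fun h' => s.trans' h' h, fun h' => s.trans' h' (s.symm' h)⟩

/-- class average -/
noncomputable def P (s : Setoid Ω) : (Ω → ℝ) →ₗ[ℝ] (Ω → ℝ) where
  toFun f x := (∑ y ∈ cl s x, f y) / (cl s x).card
  map_add' f g := by funext x; simp [Finset.sum_add_distrib, add_div]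
  map_smul' c f := by funext x; simp [← Finset.mul_sum, mul_div_assoc]

lemma P_apply (s : Setoid Ω) (f : Ω → ℝ) (x : Ω) :
    P s f x = (∑ y ∈ cl s x, f y) / (cl s x).card := rfl

lemma P_congr {s : Setoid Ω} (f : Ω → ℝ) {x y : Ω} (h : s.r x y) : P s f x = P s f y := by
  rw [P_apply, P_apply, cl_congr h]

lemma P_le {s : Setoid Ω} {f : Ω → ℝ} {x : Ω} {c : ℝ} (h : ∀ y, s.r y x → f y ≤ c) :
    P s f x ≤ c := by
  rw [P_apply, div_le_iff₀ (cl_card_pos s x)]
  calc _ ≤ ∑ y ∈ cl s x, c := Finset.sum_le_sum fun y hy => h y (mem_cl.1 hy)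
    _ = _ := by simp [mul_comm]

lemma P_mono {s : Setoid Ω} {f g : Ω → ℝ} {x : Ω} (h : ∀ y, s.r y x → f y ≤ g y) :
    P s f x ≤ P s g x := by
  rw [P_apply, P_apply]
  exact div_le_div_of_nonneg_right (Finset.sum_le_sum fun y hy => h y (mem_cl.1 hy))
    (cl_card_pos s x).le

lemma P_const {s : Setoid Ω} {f : Ω → ℝ} {x : Ω} {c : ℝ} (h : ∀ y, s.r y x → f y = c) :
    P s f x = c := by
  rw [P_apply, div_eq_iff (cl_card_pos s x).ne']
  calc _ = ∑ y ∈ cl s x, c := Finset.sum_congr rfl fun y hy => h y (mem_cl.1 hy)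
    _ = _ := by simp [mul_comm]

lemma P_local {s : Setoid Ω} {f g : Ω → ℝ} {x : Ω} (h : ∀ y, s.r y x → f y = g y) :
    P s f x = P s g x := by
  rw [P_apply, P_apply, Finset.sum_congr rfl fun y hy => h y (mem_cl.1 hy)]

lemma P_of_inv {s : Setoid Ω} {f : Ω → ℝ} (h : ∀ x y, s.r x y → f x = f y) : P s f = f :=
  funext fun x => P_const fun y hy => h y x hy

lemma P_sa (s : Setoid Ω) (f g : Ω → ℝ) : ip (P s f) g = ip f (P s g) := by
  classical
  have key : ∀ f g : Ω → ℝ, ip (P s f) g =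
      ∑ x, ∑ y, if s.r y x then f y * g x / (cl s x).card else 0 := by
    intro f g
    unfold ip
    refine Finset.sum_congr rfl fun x _ => ?_
    rw [P_apply, ← Finset.sum_filter, div_mul_eq_mul_div, Finset.sum_mul, Finset.sum_div]
    refine Finset.sum_congr ?_ fun _ _ => rfl
    ext y; simp [mem_cl]
  rw [ip_comm f, key, key, Finset.sum_comm]
  refine Finset.sum_congr rfl fun x _ => Finset.sum_congr rfl fun y _ => ?_
  by_cases h : s.r x y
  · rw [if_pos h, if_pos (s.symm' h), cl_congr h, mul_comm]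
  · rw [if_neg h, if_neg (fun h' => h (s.symm' h'))]

lemma P_tower' {s t : Setoid Ω} (h : ∀ x y, s.r x y → t.r x y) (f : Ω → ℝ) :
    P s (P t f) = P t f := P_of_inv fun x y hxy => P_congr f (h x y hxy)

lemma P_tower {s t : Setoid Ω} (h : ∀ x y, s.r x y → t.r x y) (f : Ω → ℝ) :
    P t (P s f) = P t f := ip_ext fun k => by
  rw [P_sa, P_sa, P_tower' h, P_sa]

lemma P_idem (s : Setoid Ω) (f : Ω → ℝ) : P s (P s f) = P s f := P_tower' (fun _ _ h => h) f

lemma sum_P (s : Setoid Ω) (f : Ω → ℝ) : ∑ x, P s f x = ∑ x, f x := by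
  have := P_sa s f (fun _ => 1)
  rw [P_of_inv (f := fun _ => (1 : ℝ)) (fun _ _ _ => rfl)] at this
  simpa [ip] using this

lemma sum_le_of_cl (s : Setoid Ω) {f g : Ω → ℝ}
    (h : ∀ x, ∑ y ∈ cl s x, f y ≤ ∑ y ∈ cl s x, g y) : ∑ x, f x ≤ ∑ x, g x := by
  rw [← sum_P s f, ← sum_P s g]
  refine Finset.sum_le_sum fun x _ => ?_
  rw [P_apply, P_apply]
  exact div_le_div_of_nonneg_right (h x) (cl_card_pos s x).le

lemma sum_cl_Q (s : Setoid Ω) (f : Ω → ℝ) (x : Ω) : ∑ y ∈ cl s x, (f - P s f) y = 0 := by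
  have h : P s (f - P s f) x = 0 := by rw [map_sub, P_idem, sub_self]; rfl
  rw [P_apply, div_eq_zero_iff] at h
  exact h.resolve_right (cl_card_pos s x).ne'

lemma ip_P_le (s : Setoid Ω) (f : Ω → ℝ) : ip (P s f) (P s f) ≤ ip f f := by
  have h := ip_self_nonneg (f - P s f)
  rw [ip_sub_left, ip_sub_right, ip_sub_right] at h
  have h2 : ip (P s f) (P s f) = ip f (P s f) := by rw [P_sa, P_idem]
  have h3 := ip_comm f (P s f)
  linarith

lemma P_eq_of_bij {Ω' : Type*} [Fintype Ω'] {s : Setoid Ω} {s' : Setoid Ω'} {f : Ω → ℝ}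
    {f' : Ω' → ℝ} {x : Ω} {x' : Ω'} (φ : Ω → Ω')
    (h1 : ∀ y, s.r y x → s'.r (φ y) x')
    (h2 : ∀ y z, s.r y x → s.r z x → φ y = φ z → y = z)
    (h3 : ∀ y', s'.r y' x' → ∃ y, s.r y x ∧ φ y = y')
    (h4 : ∀ y, s.r y x → f y = f' (φ y)) : P s f x = P s' f' x' := by
  rw [P_apply, P_apply]
  congr 1
  · refine Finset.sum_bij (fun y _ => φ y) (fun y hy => mem_cl.2 (h1 y (mem_cl.1 hy)))
      (fun y hy z hz => h2 y z (mem_cl.1 hy) (mem_cl.1 hz)) (fun y' hy' => ?_)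
      (fun y hy => h4 y (mem_cl.1 hy))
    obtain ⟨y, h, rfl⟩ := h3 y' (mem_cl.1 hy')
    exact ⟨y, mem_cl.2 h, rfl⟩
  · congr 1
    refine Finset.card_bij (fun y _ => φ y) (fun y hy => mem_cl.2 (h1 y (mem_cl.1 hy)))
      (fun y hy z hz => h2 y z (mem_cl.1 hy) (mem_cl.1 hz)) (fun y' hy' => ?_)
    obtain ⟨y, h, rfl⟩ := h3 y' (mem_cl.1 hy')
    exact ⟨y, mem_cl.2 h, rfl⟩

lemma P_equiv {s : Setoid Ω} {τ : Ω → Ω} (hτ : Function.Involutive τ)
    (h : ∀ x y, s.r x y → s.r (τ x) (τ y)) (f : Ω → ℝ) :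
    P s (f ∘ τ) = (P s f) ∘ τ := by
  funext x
  refine P_eq_of_bij τ (fun y hy => h _ _ hy) (fun y z _ _ e => hτ.injective e)
    (fun y' hy' => ⟨τ y', ?_, hτ y'⟩) (fun _ _ => rfl)
  have := h _ _ hy'
  rwa [hτ x] at this

lemma P_comp_inv {s : Setoid Ω} {τ : Ω → Ω} (h : ∀ x, s.r (τ x) x) (f : Ω → ℝ) :
    (P s f) ∘ τ = P s f := funext fun x => P_congr f (h x)

lemma P_inv {s : Setoid Ω} {τ : Ω → Ω} (hτ : Function.Involutive τ)
    (h : ∀ x, s.r (τ x) x) (f : Ω → ℝ) : P s (f ∘ τ) = P s f := by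
  rw [P_equiv hτ (fun x y hxy => s.trans' (h x) (s.trans' hxy (s.symm' (h y)))), P_comp_inv h]

lemma ip_comp {τ : Ω → Ω} (hτ : Function.Involutive τ) (f g : Ω → ℝ) :
    ip (f ∘ τ) g = ip f (g ∘ τ) := by
  unfold ip
  rw [← Equiv.sum_comp hτ.toPerm]
  refine Finset.sum_congr rfl fun x _ => ?_
  simp [hτ x]

lemma P_comm {s t : Setoid Ω} (inj : ∀ x y, s.r x y → t.r x y → x = y)
    (ex : ∀ x x' y, t.r x x' → s.r y x → ∃ z, s.r z x' ∧ t.r z y) (f : Ω → ℝ) :
    P s (P t f) = P t (P s f) := by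
  have key : ∀ g : Ω → ℝ, P t (P s (P t g)) = P s (P t g) := by
    intro g
    refine P_of_inv fun x x' hx => ?_
    classical
    choose! φ hφ using fun y => ex x x' y hx
    refine P_eq_of_bij φ (fun y hy => (hφ y hy).1) (fun y z hy hz e => ?_) (fun y' hy' => ?_)
      (fun y hy => P_congr g (t.symm' (hφ y hy).2))
    · refine inj _ _ (s.trans' hy (s.symm' hz)) (t.trans' (t.symm' (hφ y hy).2) ?_)
      rw [e]; exact (hφ z hz).2
    · obtain ⟨y, h1, h2⟩ := ex x' x y' (t.symm' hx) hy'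
      exact ⟨y, h1, inj _ _ (s.trans' (hφ y h1).1 (s.symm' hy')) (t.trans' (hφ y h1).2 h2)⟩
  refine ip_ext fun k => ?_
  rw [← key, P_sa t, P_sa s, P_sa t, key, P_sa t, P_sa s]

lemma ip_QQ_nonneg {s t : Setoid Ω} (h : ∀ f, P s (P t f) = P t (P s f)) (f : Ω → ℝ) :
    0 ≤ ip (f - P s f) (f - P t f) := by
  have h0 := ip_self_nonneg (f - P s f - P t (f - P s f))
  have e1 : ∀ g : Ω → ℝ, ip (g - P t g) (g - P t g) = ip g (g - P t g) := by
    intro g
    rw [ip_sub_left, P_sa, map_sub, P_idem, sub_self, ip_zero_right, sub_zero]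
  rw [e1] at h0
  have e2 : f - P s f - P t (f - P s f) = (f - P t f) - P s (f - P t f) := by
    rw [map_sub, map_sub, h]; abel
  rw [e2, ip_sub_right, ← P_sa, map_sub, P_idem, sub_self, ip_zero_left, sub_zero] at h0
  exact h0

/-- restriction of a setoid to an invariant set -/
def restr (s : Setoid Ω) (O : Ω → Prop) (h : ∀ x y, s.r x y → O x → O y) : Setoid Ω where
  r x y := s.r x y ∧ (O x ∨ x = y)
  iseqv := ⟨fun x => ⟨s.refl' x, Or.inr rfl⟩,
    fun {x y} hxy => ⟨s.symm' hxy.1, hxy.2.imp (h _ _ hxy.1) Eq.symm⟩,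
    fun {x y z} hxy hyz => ⟨s.trans' hxy.1 hyz.1, by
      rcases hxy.2 with h1 | rfl
      · exact Or.inl h1
      · exact hyz.2⟩⟩

lemma P_restr_pos {s : Setoid Ω} {O : Ω → Prop} (h : ∀ x y, s.r x y → O x → O y) (f : Ω → ℝ)
    {x : Ω} (hx : O x) : P (restr s O h) f x = P s f x :=
  P_eq_of_bij id (fun _ hy => hy.1) (fun _ _ _ _ e => e)
    (fun y hy => ⟨y, ⟨hy, Or.inl (h _ _ (s.symm' hy) hx)⟩, rfl⟩) (fun _ _ => rfl)

lemma P_restr_neg {s : Setoid Ω} {O : Ω → Prop} (h : ∀ x y, s.r x y → O x → O y) (f : Ω → ℝ)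
    {x : Ω} (hx : ¬ O x) : P (restr s O h) f x = f x :=
  P_const fun y hy => by
    rcases hy.2 with h1 | rfl
    · exact absurd (h _ _ hy.1 h1) hx
    · rfl

lemma comm_on {s t : Setoid Ω} (O : Ω → Prop) [DecidablePred O]
    (hs : ∀ x y, s.r x y → O x → O y) (ht : ∀ x y, t.r x y → O x → O y)
    (inj : ∀ x y, O x → s.r x y → t.r x y → x = y)
    (ex : ∀ x x' y, O x → t.r x x' → s.r y x → ∃ z, s.r z x' ∧ t.r z y) (f : Ω → ℝ) :
    0 ≤ ∑ x, if O x then (f - P s f) x * (f - P t f) x else 0 := by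
  have := ip_QQ_nonneg (s := restr s O hs) (t := restr t O ht) (P_comm ?_ ?_) f
  · refine this.trans_eq (Finset.sum_congr rfl fun x _ => ?_)
    by_cases hx : O x
    · simp [hx, P_restr_pos]
    · simp [hx, P_restr_neg]
  · intro x y h1 h2
    rcases h1.2 with h | h
    · exact inj x y h h1.1 h2.1
    · exact h
  · intro x x' y h1 h2
    by_cases hx : O x
    · obtain ⟨z, hz1, hz2⟩ := ex x x' y hx h1.1 h2.1
      have hz : O z := hs _ _ (s.symm' hz1) (ht _ _ h1.1 hx)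
      exact ⟨z, ⟨hz1, Or.inl hz⟩, ⟨hz2, Or.inl hz⟩⟩
    · have e1 : x = x' := h1.2.resolve_left hx
      have e2 : y = x := h2.2.resolve_left fun hy => hx (hs _ _ h2.1 hy)
      subst e1 e2
      exact ⟨y, (restr s O hs).refl' _, (restr t O ht).refl' _⟩

lemma contr_on {s : Setoid Ω} (O : Ω → Prop) [DecidablePred O]
    (hs : ∀ x y, s.r x y → O x → O y) (f : Ω → ℝ) :
    (∑ x, if O x then (P s f x) ^ 2 else 0) ≤ ∑ x, if O x then (f x) ^ 2 else 0 := by
  have := ip_P_le s (fun x => if O x then f x else 0)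
  refine le_trans (le_of_eq ?_) (this.trans_eq ?_)
  · refine Finset.sum_congr rfl fun x _ => ?_
    by_cases hx : O x
    · rw [if_pos hx, sq, P_local (g := fun x => if O x then f x else 0)]
      intro y hy
      simp [hs _ _ (s.symm' hy) hx]
    · rw [if_neg hx, P_const (c := 0), mul_zero]
      intro y hy
      have : ¬ O y := fun h => hx (hs _ _ hy h)
      simp [this]
  · refine Finset.sum_congr rfl fun x _ => ?_
    by_cases hx : O x <;> simp [hx, sq]

end Avg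

end Vale.Agent.P335
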