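import Mathlib

namespace Vale.Agent.P335

open Finset

/-- The state space: labeled simple graphs on `Fin n` in which vertex `i` has degree `d i`. -/
def Realization (n : ℕ) (d : Fin n → ℕ) : Type :=
  {G : SimpleGraph (Fin n) // ∀ i, (G.neighborSet i).ncard = d i}

noncomputable instance instFintypeRealization (n : ℕ) (d : Fin n → ℕ) :
    Fintype (Realization n d) := by
  unfold Realization; exact Fintype.ofFinite _

noncomputable instance instDecEqRealization (n : ℕ) (d : Fin n → ℕ) :
    DecidableEq (Realization n d) := Classical.decEq _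

open Classical in
/-- The perfect matchings of the complete graph on the vertex set `S`. -/
noncomputable def matchings {n : ℕ} (S : Finset (Fin n)) : Finset (Finset (Sym2 (Fin n))) :=
  univ.filter fun F => (∀ e ∈ F, ¬ e.IsDiag ∧ ∀ v ∈ e, v ∈ S) ∧ ∀ v ∈ S, ∃! e, e ∈ F ∧ v ∈ e

open Classical in
/-- Replace `F` by `F'` if all edges of `F` are present and all edges of `F'` are absent,
otherwise stay put. -/
noncomputable def step {n : ℕ} (G : SimpleGraph (Fin n)) (F F' : Finset (Sym2 (Fin n))) :
    SimpleGraph (Fin n) :=
  if (∀ e ∈ F, e ∈ G.edgeSet) ∧ (∀ e ∈ F', e ∉ G.edgeSet) then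
    SimpleGraph.fromEdgeSet ((G.edgeSet \ (F : Set (Sym2 (Fin n)))) ∪ (F' : Set (Sym2 (Fin n))))
  else G

open Classical in
/-- Probability that the non-lazy move (uniform 4-set `S`, then a uniform ordered pair of distinct
perfect matchings on `S`) sends `G` to `G'`. -/
noncomputable def moveProb {n : ℕ} (G G' : SimpleGraph (Fin n)) : ℝ :=
  (∑ S ∈ powersetCard 4 (univ : Finset (Fin n)),
    (((matchings S).offDiag.filter fun p => step G p.1 p.2 = G').card : ℝ) /
      ((matchings S).offDiag.card : ℝ)) / ((powersetCard 4 (univ : Finset (Fin n))).card : ℝ)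

/-- The transition matrix of the switch chain. -/
noncomputable def switchChain (n : ℕ) (d : Fin n → ℕ) :
    Matrix (Realization n d) (Realization n d) ℝ :=
  fun G G' => (1 / 2) * (if G = G' then 1 else 0) + (1 / 2) * moveProb G.1 G'.1

end Vale.Agent.P335
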