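import Vale.Agent.P335.Graph

namespace Vale.Agent.P335

open Finset

lemma split_abs {Ω : Type*} [Fintype Ω] (A B S : (Ω → ℝ) →ₗ[ℝ] (Ω → ℝ))
    (hA : ∀ f g, ip (A f) g = ip f (A g)) (hA2 : ∀ f, A (A f) = A f)
    (hB : ∀ f g, ip (B f) g = ip f (B g)) (hB2 : ∀ f, B (B f) = B f)
    (hS : ∀ f g, ip (S f) g = ip f (S g)) (hS2 : ∀ f, S (S f) = S f)
    (hSA : ∀ f, S (A f) = A (S f)) (hSB : ∀ f, S (B f) = B (S f))
    (hAB : ∀ f, A (B f) = A (B (S f))) (g : Ω → ℝ) :
    ip (S g - A (S g)) (S g - B (S g)) ≤ ip (g - A g) (g - B g) := by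
  obtain ⟨u, hu⟩ : ∃ u, u = g - S g := ⟨_, rfl⟩
  obtain ⟨h, hh⟩ : ∃ h, h = S g := ⟨_, rfl⟩
  have e0 : g = h + u := by rw [hu, hh]; abel
  have e1 : S u = 0 := by rw [hu, map_sub, hS2, sub_self]
  have e2 : S h = h := by rw [hh, hS2]
  have e3 : g - A g = (h - A h) + (u - A u) := by rw [e0, map_add]; abel
  have e4 : g - B g = (h - B h) + (u - B u) := by rw [e0, map_add]; abel
  have c1 : ip (h - A h) (u - B u) = 0 := by
    have : h - A h = S (h - A h) := by rw [map_sub, hSA, e2]
    rw [this, hS, map_sub, hSB, e1, map_zero, sub_zero, ip_zero_right]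
  have c2 : ip (u - A u) (h - B h) = 0 := by
    have : h - B h = S (h - B h) := by rw [map_sub, hSB, e2]
    rw [this, ← hS, map_sub, hSA, e1, map_zero, sub_zero, ip_zero_left]
  have c3 : ip (A u) (B u) = 0 := by rw [hA, hAB, e1, map_zero, map_zero, ip_zero_right]
  have c4 := ip_self_nonneg (u - A u - B u)
  have c5 : ip (A u) (A u) = ip u (A u) := by rw [hA, hA2]
  have c6 : ip (B u) (B u) = ip u (B u) := by rw [hB, hB2]
  have c7 := ip_comm u (A u)
  have c8 := ip_comm u (B u)
  have c9 := ip_comm (A u) (B u)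
  rw [← hh, e3, e4, ip_add_left, ip_add_right, ip_add_right, c1, c2]
  simp only [ip_sub_left, ip_sub_right] at c4
  have : 0 ≤ ip (u - A u) (u - B u) := by
    simp only [ip_sub_left, ip_sub_right]; linarith
  linarith

variable {V : Type*} [Fintype V] [DecidableEq V] {d : V → ℤ}

/-- complement of the pair average -/
noncomputable def Q (i j : V) (f : Gr d → ℝ) : Gr d → ℝ := f - P (agree d (Fp i j)) f

/-- pairs joining `i` or `j` to a vertex outside the four -/
def F1 (i j k l a b : V) : Prop := (a = i ∨ a = j) ∧ b ≠ i ∧ b ≠ j ∧ b ≠ k ∧ b ≠ l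

/-- same pair class and same switchability -/
def sA (d : V → ℤ) (i j k l : V) : Setoid (Gr d) where
  r x y := (agree d (Fp i j)).r x y ∧ (diag i j k l x ↔ diag i j k l y)
  iseqv := ⟨fun x => ⟨(agree d _).refl' x, Iff.rfl⟩, fun h => ⟨(agree d _).symm' h.1, h.2.symm⟩,
    fun h h' => ⟨(agree d _).trans' h.1 h'.1, h.2.trans h'.2⟩⟩

/-- the loss term -/
noncomputable def NN (i j k l : V) (f : Gr d → ℝ) : ℝ :=
  ∑ x, if diag i j k l x then (P (sA d i j k l) (Q i j f) x) ^ 2 else 0

/-- the switch energy -/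
noncomputable def EE (i j k l : V) (f : Gr d → ℝ) : ℝ :=
  ∑ x, ((f x - f (tau i j k l x)) / 2) ^ 2

/-- four distinct vertices -/
def Dist (i j k l : V) : Prop := i ≠ j ∧ k ≠ l ∧ i ≠ k ∧ i ≠ l ∧ j ≠ k ∧ j ≠ l

omit [Fintype V] [DecidableEq V] in
lemma Dist.symm {i j k l : V} (h : Dist i j k l) : Dist k l i j := by
  unfold Dist at *; grind

lemma blk_F1 {i j k l : V} (hD : Dist i j k l) {x y : Gr d} (h : (agree d (F1 i j k l)).r x y)
    {a b : V} (hb : blk i j k l a b) : x.1 a b = y.1 a b :=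
  h a b (by unfold Dist blk F1 at *; grind) (by unfold Dist blk F1 at *; grind)

lemma blk_F2 {i j k l : V} (hD : Dist i j k l) {x y : Gr d} (h : (agree d (F1 k l i j)).r x y)
    {a b : V} (hb : blk i j k l a b) : x.1 a b = y.1 a b :=
  h a b (by unfold Dist blk F1 at *; grind) (by unfold Dist blk F1 at *; grind)

omit [DecidableEq V] in
lemma diag_congr {i j k l : V} {x y : Gr d} (h : ∀ a b, blk i j k l a b → x.1 a b = y.1 a b)
    (hx : diag i j k l x) : diag i j k l y := by
  unfold diag at *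
  rwa [← h i k (by simp [blk]), ← h i l (by simp [blk]), ← h j k (by simp [blk]),
    ← h j l (by simp [blk])]

lemma tau_equiv {i j k l : V} {F : V → V → Prop} {x y : Gr d}
    (h : ∀ a b, blk i j k l a b → x.1 a b = y.1 a b) (hxy : (agree d F).r x y) :
    (agree d F).r (tau i j k l x) (tau i j k l y) := by
  by_cases hx : diag i j k l x
  · intro a b h1 h2
    rw [tau_val hx, tau_val (diag_congr h hx), hxy a b h1 h2]
  · rwa [tau_neg hx, tau_neg fun hy => hx (diag_congr (fun a b e => (h a b e).symm) hy)]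

lemma agree_F1 {i j k l : V} {x y : Gr d} (h : (agree d (Fp i j)).r x y)
    (hb : ∀ a b, blk i j k l a b → x.1 a b = y.1 a b) : (agree d (F1 i j k l)).r x y := by
  intro a b h1 h2
  by_cases e1 : blk i j k l a b
  · exact hb a b e1
  by_cases e2 : blk i j k l b a
  · rw [x.sy, y.sy, hb b a e2]
  exact h a b (by unfold blk F1 Fp at *; grind) (by unfold blk F1 Fp at *; grind)

omit [Fintype V] [DecidableEq V] in
lemma F1_Fp {i j k l : V} (a b : V) (h : F1 i j k l a b) : Fp i j a b := ⟨h.1, h.2.1, h.2.2.1⟩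

lemma comm_p2 {i j k l : V} (hD : Dist i j k l) (f : Gr d → ℝ) :
    P (agree d (F1 k l i j)) (P (agree d (Fp i j)) f) =
      P (agree d (Fp i j)) (P (agree d (F1 k l i j)) f) :=
  comm_agree (fun a b h => by unfold Dist F1 Fp at *; grind) f

lemma comm_12 {i j k l : V} (hD : Dist i j k l) (f : Gr d → ℝ) :
    P (agree d (F1 i j k l)) (P (agree d (F1 k l i j)) f) =
      P (agree d (F1 k l i j)) (P (agree d (F1 i j k l)) f) :=
  comm_agree (fun a b h => by unfold Dist F1 at *; grind) f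

lemma diagN {i j k l : V} (hD : Dist i j k l) (f : Gr d → ℝ) :
    (∑ x, if diag i j k l x then (Q i j (P (agree d (F1 i j k l)) (P (agree d (F1 k l i j))
      ((1 / 2 : ℝ) • (f + f ∘ tau i j k l)))) x) ^ 2 else 0) ≤ NN i j k l f := by
  obtain ⟨g, hg⟩ : ∃ g, g = Q i j f := ⟨_, rfl⟩
  obtain ⟨gS, hgS⟩ : ∃ gS, gS = (1 / 2 : ℝ) • (g + g ∘ tau i j k l) := ⟨_, rfl⟩
  have t1 := P_tower (agree_mono (d := d) (F1_Fp (i := i) (j := j) (k := k) (l := l)))
  have t2 := P_tower' (agree_mono (d := d) (F1_Fp (i := i) (j := j) (k := k) (l := l)))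
  have e1 : Q i j ((1 / 2 : ℝ) • (f + f ∘ tau i j k l)) = gS := by
    rw [hgS, hg]
    unfold Q
    rw [map_smul, map_add, P_inv (tau_invol i j k l) (tau_agree i j k l)]
    funext x
    have := congrFun (P_comp_inv (tau_agree i j k l) f) x
    simp only [Function.comp_apply] at this
    simp only [Pi.sub_apply, Pi.smul_apply, Pi.add_apply, Function.comp_apply, smul_eq_mul, this]
    ring
  have e2 : ∀ w, Q i j (P (agree d (F1 i j k l)) (P (agree d (F1 k l i j)) w)) =
      P (agree d (F1 k l i j)) (P (agree d (F1 i j k l)) (Q i j w)) := by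
    intro w
    unfold Q
    rw [t1, map_sub, map_sub, t2, comm_12 hD, comm_p2 hD]
  rw [e2, e1]
  refine (contr_on (diag i j k l) (fun x y h hx => diag_congr (fun a b e => blk_F2 hD h e) hx)
    _).trans_eq ?_
  unfold NN
  refine Finset.sum_congr rfl fun x _ => ?_
  split_ifs with hx
  swap
  · rfl
  congr 1
  have a1 : P (sA d i j k l) gS = P (sA d i j k l) g := by
    rw [hgS, map_smul, map_add, P_inv (s := sA d i j k l) (tau_invol i j k l)
      (fun x => ⟨tau_agree i j k l x, diag_tau_iff x⟩)]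
    funext x; simp; ring
  have a2 := P_tower (s := agree d (F1 i j k l)) (t := sA d i j k l) (fun x y h =>
    ⟨agree_mono F1_Fp x y h, diag_congr fun a b e => blk_F1 hD h e,
      diag_congr fun a b e => (blk_F1 hD h e).symm⟩) gS
  have a3 : gS ∘ tau i j k l = gS := by
    rw [hgS]; funext x; simp [tau_invol i j k l x]; ring
  have a4 := P_equiv (s := agree d (F1 i j k l)) (tau_invol i j k l)
    (fun x y h => tau_equiv (fun a b e => blk_F1 hD h e) h) gS
  rw [a3] at a4
  rw [← hg, ← a1, ← a2]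
  refine (P_const fun y hy => ?_).symm
  have hy2 := hy.2.2 hx
  have blkeq : ∀ x y : Gr d, diag i j k l x → diag i j k l y → x.1 i k = y.1 i k →
      ∀ a b, blk i j k l a b → x.1 a b = y.1 a b := by
    rintro x y ⟨-, -, -, -, p1, p2, p3⟩ ⟨-, -, -, -, q1, q2, q3⟩ e a b h
    have e' : x.1 i l = y.1 i l := by
      revert p3 q3; rw [e]; cases y.1 i k <;> cases x.1 i l <;> cases y.1 i l <;> simp
    rcases h with ⟨rfl | rfl, rfl | rfl⟩
    · exact e
    · exact e'
    · rw [← p2, ← q2, e']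
    · rw [← p1, ← q1, e]
  by_cases e : y.1 i k = x.1 i k
  · exact P_congr _ (agree_F1 hy.1 (blkeq y x hy2 hx e))
  · rw [congrFun a4 x]
    refine P_congr _ (agree_F1 ((agree d _).trans' hy.1 ((agree d _).symm' (tau_agree i j k l x)))
      (blkeq y _ hy2 (diag_tau hx) ?_))
    rw [tau_on hx (by simp [blk])]
    revert e; cases y.1 i k <;> cases x.1 i k <;> simp

/-- odd number of edges in the block -/
def odd (i j k l : V) (x : Gr d) : Prop :=
  (io (x.1 i k) + io (x.1 i l) + io (x.1 j k) + io (x.1 j l)) % 2 = 1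

instance (i j k l : V) : DecidablePred (odd (d := d) i j k l) := fun x => by
  unfold odd; infer_instance

lemma rowsum {i j k l : V} (hD : Dist i j k l) {x y : Gr d} (h : (agree d (Fp k l)).r x y) :
    io (x.1 i k) + io (x.1 i l) = io (y.1 i k) + io (y.1 i l) ∧
      io (x.1 j k) + io (x.1 j l) = io (y.1 j k) + io (y.1 j l) := by
  obtain ⟨n1, n2, n3, n4, n5, n6⟩ := hD
  have a := colsum n2 h n3 n4
  have b := colsum n2 h n5 n6
  rw [x.sy k, x.sy l, y.sy k, y.sy l] at a b
  exact ⟨a, b⟩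

lemma colsum2 {i j k l : V} (hD : Dist i j k l) {x y : Gr d} (h : (agree d (Fp i j)).r x y) :
    io (x.1 i k) + io (x.1 j k) = io (y.1 i k) + io (y.1 j k) ∧
      io (x.1 i l) + io (x.1 j l) = io (y.1 i l) + io (y.1 j l) := by
  obtain ⟨n1, n2, n3, n4, n5, n6⟩ := hD
  exact ⟨colsum n1 h n3.symm n5.symm, colsum n1 h n4.symm n6.symm⟩

lemma odd_ex : ∀ x1 x2 x3 x4 p1 p2 p3 p4 y1 y2 y3 y4 : Bool,
    (io x1 + io x2 + io x3 + io x4) % 2 = 1 → io x1 + io x2 = io p1 + io p2 →
    io x3 + io x4 = io p3 + io p4 → io y1 + io y3 = io x1 + io x3 →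
    io y2 + io y4 = io x2 + io x4 → ∃ b1 b2 b3 b4 : Bool, io b1 + io b2 = io y1 + io y2 ∧
      io b3 + io b4 = io y3 + io y4 ∧ io b1 + io b3 = io p1 + io p3 ∧
      io b2 + io b4 = io p2 + io p4 := by decide +kernel

lemma odd_inj : ∀ x1 x2 x3 x4 y1 y2 y3 y4 : Bool,
    (io x1 + io x2 + io x3 + io x4) % 2 = 1 → io x1 + io x2 = io y1 + io y2 →
    io x3 + io x4 = io y3 + io y4 → io x1 + io x3 = io y1 + io y3 →
    io x2 + io x4 = io y2 + io y4 → x1 = y1 ∧ x2 = y2 ∧ x3 = y3 ∧ x4 = y4 := by decide +kernel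

lemma odd_nonneg {i j k l : V} (hD : Dist i j k l) (f : Gr d → ℝ) :
    0 ≤ ∑ x, if odd i j k l x then Q i j f x * Q k l f x else 0 := by
  classical
  have excl : ∀ a b, ¬ blk i j k l a b → ¬ blk i j k l b a → Fp i j a b ∨ Fp i j b a →
      ¬ Fp k l a b ∧ ¬ Fp k l b a := by
    intro a b; unfold Dist blk Fp at *; grind
  refine comm_on (s := agree d (Fp i j)) (t := agree d (Fp k l)) (odd i j k l)
    (fun x y h hx => ?_) (fun x y h hx => ?_) (fun x y hx h1 h2 => ?_)
    (fun x x' y hx h1 h2 => ?_) f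
  · have := colsum2 hD h
    unfold odd at *; omega
  · have := rowsum hD h
    unfold odd at *; omega
  · obtain ⟨e1, e2, e3, e4⟩ := odd_inj _ _ _ _ _ _ _ _ hx (rowsum hD h2).1 (rowsum hD h2).2
      (colsum2 hD h1).1 (colsum2 hD h1).2
    have hb : ∀ a b, blk i j k l a b → x.1 a b = y.1 a b := by
      rintro a b ⟨rfl | rfl, rfl | rfl⟩ <;> assumption
    refine Subtype.ext (funext fun a => funext fun b => ?_)
    by_cases c1 : blk i j k l a b
    · exact hb a b c1
    by_cases c2 : blk i j k l b a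
    · rw [x.sy, y.sy, hb b a c2]
    by_cases c3 : Fp i j a b ∨ Fp i j b a
    · exact h2 a b (excl a b c1 c2 c3).1 (excl a b c1 c2 c3).2
    · rw [not_or] at c3; exact h1 a b c3.1 c3.2
  · obtain ⟨b1, b2, b3, b4, e1, e2, e3, e4⟩ := odd_ex _ _ _ _ _ _ _ _ _ _ _ _ hx (rowsum hD h1).1
      (rowsum hD h1).2 (colsum2 hD h2).1 (colsum2 hD h2).2
    obtain ⟨B, hB⟩ : ∃ B : V → V → Bool, B = fun a b =>
      if a = i then (if b = k then b1 else b2) else (if b = k then b3 else b4) := ⟨_, rfl⟩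
    obtain ⟨n1, n2, n3, n4, n5, n6⟩ := hD
    have B1 : B i k = b1 := by simp [hB]
    have B2 : B i l = b2 := by simp [hB, n2.symm]
    have B3 : B j k = b3 := by simp [hB, n1.symm]
    have B4 : B j l = b4 := by simp [hB, n1.symm, n2.symm]
    obtain ⟨z, hz⟩ : ∃ z : V → V → Bool, z = fun a b => if blk i j k l a b then B a b else
      if blk i j k l b a then B b a else if Fp i j a b ∨ Fp i j b a then y.1 a b else x'.1 a b :=
      ⟨_, rfl⟩
    have nb : ∀ a b, blk i j k l a b → ¬ blk i j k l b a := by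
      intro a b; unfold blk; grind
    have z1 : ∀ a b, blk i j k l a b → z a b = B a b := fun a b h => by simp [hz, h]
    have z2 : ∀ a b, blk i j k l b a → z a b = B b a := fun a b h => by simp [hz, h, nb _ _ h]
    have z3 : ∀ a b, ¬ blk i j k l a b → ¬ blk i j k l b a → Fp i j a b ∨ Fp i j b a →
        z a b = y.1 a b := fun a b c1 c2 c3 => by simp only [hz, c1, c2, c3, if_true, if_false]
    have z4 : ∀ a b, ¬ blk i j k l a b → ¬ blk i j k l b a → ¬ (Fp i j a b ∨ Fp i j b a) →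
        z a b = x'.1 a b := fun a b c1 c2 c3 => by simp only [hz, c1, c2, c3, if_false]
    have zq : ∀ a b, ¬ Fp k l a b → ¬ Fp k l b a → z a b = y.1 a b := by
      intro a b c1 c2
      have c3 : ¬ blk i j k l a b := by unfold blk Fp at *; grind
      have c4 : ¬ blk i j k l b a := by unfold blk Fp at *; grind
      by_cases c5 : Fp i j a b ∨ Fp i j b a
      · exact z3 a b c3 c4 c5
      · rw [z4 a b c3 c4 c5, ← h1 a b c1 c2]
        rw [not_or] at c5
        exact (h2 a b c5.1 c5.2).symm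
    have zp : ∀ a b, ¬ Fp i j a b → ¬ Fp i j b a → z a b = x'.1 a b := by
      intro a b c1 c2
      exact z4 a b (by unfold blk Fp at *; grind) (by unfold blk Fp at *; grind) (by tauto)
    refine ⟨⟨z, fun a b => ?_, fun a => ?_, fun a => ?_⟩, zp, zq⟩
    · by_cases c1 : blk i j k l a b
      · rw [z1 a b c1, z2 b a c1]
      by_cases c2 : blk i j k l b a
      · rw [z1 b a c2, z2 a b c2]
      by_cases c3 : Fp i j a b ∨ Fp i j b a
      · rw [z3 a b c1 c2 c3, z3 b a c2 c1 c3.symm, y.sy]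
      · rw [z4 a b c1 c2 c3, z4 b a c2 c1 (fun h => c3 h.symm), x'.sy]
    · rw [zp a a (by unfold Fp; grind) (by unfold Fp; grind), x'.2.2.1]
    · by_cases c1 : a = i ∨ a = j
      · rw [← y.2.2.2 a]
        refine (pair_iff n2 fun c c2 c3 => zq a c (by unfold Fp; grind) (by unfold Fp; grind)).2 ?_
        rw [z1 a k (by simp [blk, c1]), z1 a l (by simp [blk, c1])]
        rcases c1 with rfl | rfl
        · rw [B1, B2, e1]
        · rw [B3, B4, e2]
      by_cases c2 : a = k ∨ a = l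
      · rw [← x'.2.2.2 a]
        refine (pair_iff n1 fun c c2 c3 => zp a c (by unfold Fp; grind) (by unfold Fp; grind)).2 ?_
        rw [z2 a i (by simp [blk, c2]), z2 a j (by simp [blk, c2]), x'.sy a, x'.sy a]
        rcases c2 with rfl | rfl
        · rw [B1, B3, e3]
        · rw [B2, B4, e4]
      have : ∀ b, io (z a b) = io (y.1 a b) + io (x'.1 a b) - io (x.1 a b) := by
        intro b
        have c3 : ¬ blk i j k l a b := by unfold blk; grind
        have c4 : ¬ blk i j k l b a := by unfold blk; grind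
        by_cases c5 : Fp i j a b ∨ Fp i j b a
        · rw [z3 a b c3 c4 c5, h1 a b (excl a b c3 c4 c5).1 (excl a b c3 c4 c5).2]; ring
        · rw [z4 a b c3 c4 c5]
          rw [not_or] at c5
          rw [h2 a b c5.1 c5.2]; ring
      simp only [this, Finset.sum_sub_distrib, Finset.sum_add_distrib, x.2.2.2, y.2.2.2, x'.2.2.2]
      ring

lemma Q_zero {i j k l : V} (hD : Dist i j k l) {h : Gr d → ℝ}
    (hh : ∀ x y, (agree d (F1 i j k l)).r x y → h x = h y) {x : Gr d} (e1 : x.1 i k = x.1 j k)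
    (e2 : x.1 i l = x.1 j l) : Q i j h x = 0 := by
  unfold Q
  rw [Pi.sub_apply, sub_eq_zero]
  refine (P_const fun y hy => hh _ _ (agree_F1 hy ?_)).symm
  have := colsum2 hD hy
  rw [e1, e2] at this
  have := io_bd (y.1 i k)
  have := io_bd (y.1 i l)
  have := io_bd (y.1 j k)
  have := io_bd (y.1 j l)
  have := io_bd (x.1 j k)
  have := io_bd (x.1 j l)
  rintro a b ⟨rfl | rfl, rfl | rfl⟩
  · rw [e1]; exact io_inj (by omega)
  · rw [e2]; exact io_inj (by omega)
  · exact io_inj (by omega)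
  · exact io_inj (by omega)

lemma blk_cases : ∀ a b c e : Bool, (io a + io b + io c + io e) % 2 = 1 ∨
    (a = e ∧ b = c ∧ a ≠ b) ∨ (a = c ∧ b = e) ∨ (a = b ∧ c = e) := by decide

lemma odd_not_diag : ∀ a b : Bool, (io a + io b + io b + io a) % 2 ≠ 1 := by decide

theorem disj {i j k l : V} (hD : Dist i j k l) (f : Gr d → ℝ) :
    EE i j k l f - NN i j k l f / 2 - NN k l i j f / 2 ≤ ip (Q i j f) (Q k l f) := by
  obtain ⟨fS, hS⟩ : ∃ fS, fS = (1 / 2 : ℝ) • (f + f ∘ tau i j k l) := ⟨_, rfl⟩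
  obtain ⟨fA, hA⟩ : ∃ fA, fA = (1 / 2 : ℝ) • (f - f ∘ tau i j k l) := ⟨_, rfl⟩
  have inv := tau_invol (d := d) i j k l
  have agp := tau_agree (d := d) i j k l
  have agq := tau_agree (d := d) k l i j
  rw [tau_symm] at agq
  have e0 : f = fS + fA := by rw [hS, hA]; funext x; simp; ring
  have e1 : fS ∘ tau i j k l = fS := by rw [hS]; funext x; simp [inv x]; ring
  have e2 : fA ∘ tau i j k l = -fA := by rw [hA]; funext x; simp [inv x]; ring
  have e3 : ∀ g, g ∘ tau i j k l = g → ip fA g = 0 := by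
    intro g hg
    have := ip_comp inv fA g
    rw [hg, e2, ← neg_one_smul ℝ fA, ip_smul_left] at this
    linarith
  have e4 : ∀ a b, (∀ x, (agree d (Fp a b)).r (tau i j k l x) x) →
      Q a b f = fA + Q a b fS ∧ ip fA (Q a b fS) = 0 := by
    intro a b ag
    have : P (agree d (Fp a b)) fA = 0 := by
      rw [hA, map_smul, map_sub, P_inv inv ag, sub_self, smul_zero]
    constructor
    · unfold Q
      rw [e0, map_add, this]; abel
    · refine e3 _ ?_
      unfold Q
      rw [Pi.sub_comp, e1, P_comp_inv ag]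
  have e5 : ip fA fA = EE i j k l f := by
    rw [hA]; unfold ip EE
    exact Finset.sum_congr rfl fun x _ => by simp; ring
  rw [(e4 i j agp).1, (e4 k l agq).1, ip_add_left, ip_add_right, ip_add_right, e5, (e4 k l agq).2,
    ip_comm _ fA, (e4 i j agp).2]
  have t1 := P_tower (agree_mono (d := d) (F1_Fp (i := i) (j := j) (k := k) (l := l)))
  have t2 := P_tower' (agree_mono (d := d) (F1_Fp (i := i) (j := j) (k := k) (l := l)))
  have t3 := P_tower (agree_mono (d := d) (F1_Fp (i := k) (j := l) (k := i) (l := j)))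
  have t4 := P_tower' (agree_mono (d := d) (F1_Fp (i := k) (j := l) (k := i) (l := j)))
  have key := split_abs (P (agree d (Fp i j))) (P (agree d (Fp k l)))
    (P (agree d (F1 i j k l)) ∘ₗ P (agree d (F1 k l i j))) (P_sa _) (P_idem _) (P_sa _) (P_idem _)
    (fun f g => by simp only [LinearMap.comp_apply]; rw [P_sa, P_sa, comm_12 hD])
    (fun f => by simp only [LinearMap.comp_apply]; rw [← comm_12 hD, P_idem, P_idem])
    (fun f => by simp only [LinearMap.comp_apply]; rw [t1, comm_p2 hD, t2])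
    (fun f => by simp only [LinearMap.comp_apply]; rw [t4, comm_12 hD, t3, comm_p2 hD.symm])
    (fun f => by simp only [LinearMap.comp_apply]; rw [← comm_p2 hD.symm, t3, t1]) fS
  simp only [LinearMap.comp_apply] at key
  have n1 := diagN hD f
  have n2 := diagN hD.symm f
  rw [tau_symm, ← comm_12 hD] at n2
  rw [← hS] at n1 n2
  have i1 : ∀ x y, (agree d (F1 i j k l)).r x y → P (agree d (F1 i j k l))
    (P (agree d (F1 k l i j)) fS) x = P (agree d (F1 i j k l)) (P (agree d (F1 k l i j)) fS) y :=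
    fun x y h => P_congr _ h
  have i2 : ∀ x y, (agree d (F1 k l i j)).r x y → P (agree d (F1 i j k l))
    (P (agree d (F1 k l i j)) fS) x = P (agree d (F1 i j k l)) (P (agree d (F1 k l i j)) fS) y :=
    fun x y h => by rw [comm_12 hD]; exact P_congr _ h
  generalize P (agree d (F1 i j k l)) (P (agree d (F1 k l i j)) fS) = h at key n1 n2 i1 i2
  have o := odd_nonneg hD h
  have pt : ∀ x, (if odd i j k l x then Q i j h x * Q k l h x else 0) -
      (if diag i j k l x then (Q i j h x) ^ 2 else 0) / 2 -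
      (if diag k l i j x then (Q k l h x) ^ 2 else 0) / 2 ≤ Q i j h x * Q k l h x := by
    intro x
    by_cases c1 : diag i j k l x
    · have c2 : ¬ odd i j k l x := by
        unfold odd
        rw [← c1.2.2.2.2.1, ← c1.2.2.2.2.2.1]
        exact odd_not_diag _ _
      rw [if_pos c1, if_pos (diag_symm c1), if_neg c2]
      nlinarith [sq_nonneg (Q i j h x + Q k l h x)]
    rw [if_neg c1, if_neg fun h => c1 (diag_symm h)]
    by_cases c2 : odd i j k l x
    · simp [c2]
    rw [if_neg c2]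
    rcases blk_cases (x.1 i k) (x.1 i l) (x.1 j k) (x.1 j l) with c | c | c | c
    · exact absurd c c2
    · exact absurd ⟨hD.2.2.1, hD.2.2.2.1, hD.2.2.2.2.1, hD.2.2.2.2.2, c⟩ c1
    · simp [Q_zero hD i1 c.1 c.2]
    · simp [Q_zero hD.symm i2 (x := x) (by rw [x.sy k, x.sy l, c.1]) (by rw [x.sy k, x.sy l, c.2])]
  have s := Finset.sum_le_sum fun x (_ : x ∈ univ) => pt x
  simp only [Finset.sum_sub_distrib, ← Finset.sum_div] at s
  change ip (Q i j h) (Q k l h) ≤ ip (Q i j fS) (Q k l fS) at key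
  change _ ≤ ip (Q i j h) (Q k l h) at s
  linarith

end Vale.Agent.P335
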