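import Vale.Agent.P335.Gap
import Vale.Agent.P335.Defs

namespace Vale.Agent.P335

open Finset

variable {n : ℕ}

lemma mem_matchings {S : Finset (Fin n)} {F : Finset (Sym2 (Fin n))} : F ∈ matchings S ↔
    (∀ e ∈ F, ¬ e.IsDiag ∧ ∀ v ∈ e, v ∈ S) ∧ ∀ v ∈ S, ∃! e, e ∈ F ∧ v ∈ e := by
  simp only [matchings, Finset.mem_filter, mem_univ, true_and]

lemma step_edge {G : SimpleGraph (Fin n)} {F F' : Finset (Sym2 (Fin n))}
    (hF' : ∀ e ∈ F', ¬ e.IsDiag) (h : (∀ e ∈ F, e ∈ G.edgeSet) ∧ (∀ e ∈ F', e ∉ G.edgeSet))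
    (e : Sym2 (Fin n)) : e ∈ (step G F F').edgeSet ↔ (e ∈ G.edgeSet ∧ e ∉ F) ∨ e ∈ F' := by
  rw [step, if_pos h, SimpleGraph.edgeSet_fromEdgeSet]
  simp only [Set.mem_sdiff, Set.mem_union, Finset.mem_coe, Sym2.mem_diagSet]
  constructor
  · exact fun h => h.1
  · rintro (h | h)
    · exact ⟨Or.inl h, G.not_isDiag_of_mem_edgeSet h.1⟩
    · exact ⟨Or.inr h, hF' e h⟩

lemma step_step {G : SimpleGraph (Fin n)} {F F' : Finset (Sym2 (Fin n))}
    (hF : ∀ e ∈ F, ¬ e.IsDiag) (hF' : ∀ e ∈ F', ¬ e.IsDiag)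
    (h : (∀ e ∈ F, e ∈ G.edgeSet) ∧ (∀ e ∈ F', e ∉ G.edgeSet)) : step (step G F F') F' F = G := by
  rw [← SimpleGraph.edgeSet_inj]
  ext e
  rw [step_edge hF ⟨fun e he => (step_edge hF' h e).2 (Or.inr he), fun e he => by
    rw [step_edge hF' h]; have := h.1 e he; have := h.2 e; tauto⟩, step_edge hF' h]
  have := h.1 e
  have := h.2 e
  tauto

lemma partner {S : Finset (Fin n)} {F : Finset (Sym2 (Fin n))} (hF : F ∈ matchings S) {v : Fin n}
    (hv : v ∈ S) : ∃ a, ∀ w, s(v, w) ∈ F ↔ w = a := by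
  obtain ⟨e, ⟨h1, h2⟩, h3⟩ := (mem_matchings.1 hF).2 v hv
  obtain ⟨a, rfl⟩ := Sym2.mem_iff_exists.1 h2
  refine ⟨a, fun w => ⟨fun h => ?_, fun h => h ▸ h1⟩⟩
  exact Sym2.congr_right.1 (h3 _ ⟨h, Sym2.mem_mk_left _ _⟩)

lemma step_deg {S : Finset (Fin n)} (G : SimpleGraph (Fin n)) {F F' : Finset (Sym2 (Fin n))}
    (hF : F ∈ matchings S) (hF' : F' ∈ matchings S) (v : Fin n) :
    ((step G F F').neighborSet v).ncard = (G.neighborSet v).ncard := by
  by_cases h : (∀ e ∈ F, e ∈ G.edgeSet) ∧ (∀ e ∈ F', e ∉ G.edgeSet)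
  swap
  · rw [step, if_neg h]
  have key := fun w => step_edge (fun e he => ((mem_matchings.1 hF').1 e he).1) h s(v, w)
  simp only [SimpleGraph.mem_edgeSet] at key
  by_cases hv : v ∈ S
  · obtain ⟨a, ha⟩ := partner hF hv
    obtain ⟨b, hb⟩ := partner hF' hv
    have h1 : a ∈ G.neighborSet v := h.1 _ ((ha a).2 rfl)
    have h2 : b ∉ G.neighborSet v := h.2 _ ((hb b).2 rfl)
    rw [← Set.ncard_exchange h2 h1]
    congr 1
    ext w
    simp only [SimpleGraph.mem_neighborSet, key, ha, hb, Set.mem_insert_iff, Set.mem_sdiff,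
      Set.mem_singleton_iff, or_comm]
  · congr 1
    ext w
    have a : s(v, w) ∉ F := fun e => hv (((mem_matchings.1 hF).1 _ e).2 v (Sym2.mem_mk_left _ _))
    have b : s(v, w) ∉ F' := fun e => hv (((mem_matchings.1 hF').1 _ e).2 v (Sym2.mem_mk_left _ _))
    simp [key, a, b]

lemma mem_m {a b c e : Fin n} (h : Dist a c b e) {S : Finset (Fin n)}
    (hS : ∀ v, v ∈ S ↔ v = a ∨ v = b ∨ v = c ∨ v = e) :
    ({s(a, b), s(c, e)} : Finset (Sym2 (Fin n))) ∈ matchings S := by
  obtain ⟨n1, n2, n3, n4, n5, n6⟩ := h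
  rw [mem_matchings]
  constructor
  · intro f hf
    simp only [Finset.mem_insert, Finset.mem_singleton] at hf
    rcases hf with rfl | rfl <;> simp [*]
  · intro v hv
    rw [hS] at hv
    by_cases hh : v = a ∨ v = b
    · refine ⟨s(a, b), by simpa using hh, ?_⟩
      rintro f ⟨h1, h2⟩
      simp only [Finset.mem_insert, Finset.mem_singleton] at h1
      rcases h1 with rfl | rfl
      · rfl
      · simp only [Sym2.mem_iff] at h2; grind
    · refine ⟨s(c, e), by simp; tauto, ?_⟩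
      rintro f ⟨h1, h2⟩
      simp only [Finset.mem_insert, Finset.mem_singleton] at h1
      rcases h1 with rfl | rfl
      · simp only [Sym2.mem_iff] at h2; grind
      · rfl

lemma pair_mem {i j k l : Fin n} (h : Dist i j k l) {S : Finset (Fin n)}
    (hS : ∀ v, v ∈ S ↔ v = i ∨ v = j ∨ v = k ∨ v = l) :
    (({s(i, k), s(j, l)}, {s(i, l), s(j, k)}) :
      Finset (Sym2 (Fin n)) × Finset (Sym2 (Fin n))) ∈ (matchings S).offDiag := by
  rw [Finset.mem_offDiag]
  refine ⟨mem_m h fun v => by rw [hS]; tauto, mem_m (by unfold Dist at *; grind)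
    fun v => by rw [hS]; tauto, fun e => ?_⟩
  have : s(i, k) ∈ ({s(i, l), s(j, k)} : Finset (Sym2 (Fin n))) := by
    simp only at e
    rw [← e]; simp
  unfold Dist at h
  simp only [Finset.mem_insert, Finset.mem_singleton, Sym2.eq_iff] at this
  grind

lemma card_pairs {S : Finset (Fin n)} (hS : S.card = 4) :
    0 < (matchings S).offDiag.card ∧ (matchings S).offDiag.card ≤ 2 ^ 20 := by
  constructor
  · obtain ⟨a, T, ha, rfl, hT⟩ := Finset.card_eq_succ.1 hS
    obtain ⟨b, c, e, h1, h2, h3, rfl⟩ := Finset.card_eq_three.1 hT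
    refine Finset.card_pos.2 ⟨_, pair_mem (i := a) (j := b) (k := c) (l := e) ?_ (by simp)⟩
    simp only [Finset.mem_insert, Finset.mem_singleton, not_or] at ha
    exact ⟨ha.1, h3, ha.2.1, ha.2.2, h1, h2⟩
  · have h1 : (matchings S).card ≤ 2 ^ 10 := by
      have : matchings S ⊆ S.sym2.powerset := fun F hF => Finset.mem_powerset.2 fun e he =>
        Finset.mem_sym2_iff.2 ((mem_matchings.1 hF).1 e he).2
      refine (Finset.card_le_card this).trans ?_
      rw [Finset.card_powerset, Finset.card_sym2, hS]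
      decide
    rw [Finset.offDiag_card]
    calc _ ≤ (matchings S).card * (matchings S).card := Nat.sub_le _ _
      _ ≤ 2 ^ 10 * 2 ^ 10 := Nat.mul_le_mul h1 h1
      _ = _ := by norm_num

lemma moveProb_nonneg (G G' : SimpleGraph (Fin n)) : 0 ≤ moveProb G G' := by
  unfold moveProb; positivity

lemma moveProb_symm (G G' : SimpleGraph (Fin n)) : moveProb G G' = moveProb G' G := by
  classical
  by_cases hG : G = G'
  · rw [hG]
  unfold moveProb
  congr 1
  refine Finset.sum_congr rfl fun S _ => ?_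
  congr 2
  have key : ∀ G G' : SimpleGraph (Fin n), G ≠ G' →
      ∀ p ∈ (matchings S).offDiag.filter fun p => step G p.1 p.2 = G',
        p.swap ∈ (matchings S).offDiag.filter fun p => step G' p.1 p.2 = G := by
    intro G G' hG p hp
    simp only [Finset.mem_filter, Finset.mem_offDiag, Prod.fst_swap, Prod.snd_swap] at hp ⊢
    obtain ⟨⟨h1, h2, h3⟩, h4⟩ := hp
    refine ⟨⟨h2, h1, h3.symm⟩, ?_⟩
    rw [← h4]
    refine step_step (fun e he => ((mem_matchings.1 h1).1 e he).1)
      (fun e he => ((mem_matchings.1 h2).1 e he).1) ?_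
    by_contra hc
    rw [step, if_neg hc] at h4
    exact hG h4
  exact Finset.card_bij' (fun p _ => p.swap) (fun p _ => p.swap) (key G G' hG)
    (key G' G (Ne.symm hG)) (fun _ _ => rfl) (fun _ _ => rfl)

lemma card_sets (hn : 4 ≤ n) : 0 < (powersetCard 4 (univ : Finset (Fin n))).card ∧
    (powersetCard 4 (univ : Finset (Fin n))).card ≤ n ^ 4 := by
  rw [Finset.card_powersetCard, Finset.card_univ, Fintype.card_fin]
  exact ⟨Nat.choose_pos hn, Nat.choose_le_pow _ _⟩

lemma moveProb_sum (hn : 4 ≤ n) {d : Fin n → ℕ} (G : Realization n d) :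
    ∑ G' : Realization n d, moveProb G.1 G'.1 = 1 := by
  classical
  unfold moveProb
  rw [← Finset.sum_div, Finset.sum_comm, div_eq_one_iff_eq (by exact_mod_cast (card_sets hn).1.ne'),
    Finset.card_eq_sum_ones, Nat.cast_sum]
  refine Finset.sum_congr rfl fun S hS => ?_
  have h0 := (card_pairs (Finset.mem_powersetCard.1 hS).2).1
  rw [← Finset.sum_div, Nat.cast_one, div_eq_one_iff_eq (by exact_mod_cast h0.ne')]
  simp only [Finset.card_filter, Nat.cast_sum]
  rw [Finset.sum_comm, Finset.card_eq_sum_ones, Nat.cast_sum]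
  refine Finset.sum_congr rfl fun p hp => ?_
  rw [Finset.mem_offDiag] at hp
  obtain ⟨G0, h0⟩ : ∃ G0 : Realization n d, G0.1 = step G.1 p.1 p.2 :=
    ⟨⟨step G.1 p.1 p.2, fun i => (step_deg G.1 hp.1 hp.2.1 i).trans (G.2 i)⟩, rfl⟩
  rw [Finset.sum_eq_single G0]
  · rw [if_pos h0.symm]
  · intro b _ hb
    rw [if_neg fun e => hb (Subtype.ext (e.symm.trans h0.symm)), Nat.cast_zero]
  · simp

lemma moveProb_ge (hn : 4 ≤ n) (G : SimpleGraph (Fin n)) {S : Finset (Fin n)} (hS : S.card = 4)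
    {p : Finset (Sym2 (Fin n)) × Finset (Sym2 (Fin n))} (hp : p ∈ (matchings S).offDiag) :
    1 ≤ (2 ^ 20 * (n : ℝ) ^ 4) * moveProb G (step G p.1 p.2) := by
  classical
  unfold moveProb
  have c1 : (0 : ℝ) < (powersetCard 4 (univ : Finset (Fin n))).card := by
    exact_mod_cast (card_sets hn).1
  have c2 : ((powersetCard 4 (univ : Finset (Fin n))).card : ℝ) ≤ n ^ 4 := by
    exact_mod_cast (card_sets hn).2
  have c3 : (0 : ℝ) < (matchings S).offDiag.card := by exact_mod_cast (card_pairs hS).1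
  have c4 : ((matchings S).offDiag.card : ℝ) ≤ 2 ^ 20 := by exact_mod_cast (card_pairs hS).2
  have c5 : (1 : ℝ) ≤
      ((matchings S).offDiag.filter fun q => step G q.1 q.2 = step G p.1 p.2).card := by
    have : 0 < ((matchings S).offDiag.filter fun q => step G q.1 q.2 = step G p.1 p.2).card :=
      Finset.card_pos.2 ⟨p, Finset.mem_filter.2 ⟨hp, rfl⟩⟩
    exact_mod_cast this
  have c6 := Finset.single_le_sum (f := fun S : Finset (Fin n) =>
    (((matchings S).offDiag.filter fun q => step G q.1 q.2 = step G p.1 p.2).card : ℝ) /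
      ((matchings S).offDiag.card : ℝ)) (fun _ _ => by positivity)
    (Finset.mem_powersetCard.2 ⟨Finset.subset_univ S, hS⟩)
  have c7 : 1 / (2 : ℝ) ^ 20 ≤ _ := (div_le_div₀ (by linarith) c5 c3 c4).trans c6
  rw [← mul_div_assoc, le_div_iff₀ c1]
  rw [div_le_iff₀ (by positivity)] at c7
  have : (0 : ℝ) ≤ n ^ 4 := by positivity
  nlinarith

lemma sum_io (f : Fin n → Bool) : ∑ b, io (f b) = (({b | f b = true} : Set (Fin n)).ncard : ℤ) := by
  have : ({b | f b = true} : Set (Fin n)) = ↑(univ.filter fun b => f b = true) := by simp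
  rw [this, Set.ncard_coe_finset, Finset.card_filter]
  push_cast
  exact Finset.sum_congr rfl fun b _ => by cases f b <;> simp

/-- from matrices to graphs -/
def toR {d : Fin n → ℕ} (x : Gr fun i => (d i : ℤ)) : Realization n d :=
  ⟨{ Adj := fun a b => x.1 a b = true
     symm := ⟨fun a b h => by rw [x.sy]; exact h⟩
     loopless := ⟨fun a => by simp [x.2.2.1]⟩ }, fun i => by
    have := x.2.2.2 i
    rw [sum_io] at this
    exact Int.ofNat_inj.1 this⟩

lemma toR_bij {d : Fin n → ℕ} : Function.Bijective (toR (d := d)) := by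
  classical
  constructor
  · intro x y h
    refine Subtype.ext (funext fun a => funext fun b => ?_)
    have : (toR x).1.Adj a b = (toR y).1.Adj a b := by rw [h]
    simp only [toR, eq_iff_iff] at this
    exact Bool.eq_iff_iff.2 this
  · intro G
    refine ⟨⟨fun a b => decide (G.1.Adj a b), fun a b => by simp only [G.1.adj_comm],
      fun a => by simp, fun a => ?_⟩, Subtype.ext ?_⟩
    · rw [sum_io]
      simp only [decide_eq_true_eq]
      exact congrArg Nat.cast (G.2 a)
    · ext a b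
      simp [toR]

lemma toR_tau {d : Fin n → ℕ} {i j k l : Fin n} {x : Gr fun i => (d i : ℤ)} (h : diag i j k l x)
    (h1 : x.1 i k = true) :
    (toR (tau i j k l x)).1 = step (toR x).1 {s(i, k), s(j, l)} {s(i, l), s(j, k)} := by
  have hh := h
  obtain ⟨n5, n6⟩ := h.ne
  obtain ⟨n1, n2, n3, n4, e1, e2, e3⟩ := hh
  have h2 : x.1 j l = true := e1 ▸ h1
  have h3 : x.1 i l = false := by revert e3; rw [h1]; cases x.1 i l <;> simp
  have h4 : x.1 j k = false := e2 ▸ h3
  ext a b
  rw [← SimpleGraph.mem_edgeSet (step _ _ _), step_edge (by simp [n2, n3])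
    (by simp [toR, h1, h2, h3, h4])]
  have h5 := x.sy k i
  have h6 := x.sy k j
  have h7 := x.sy l i
  have h8 := x.sy l j
  simp only [toR, tau_val h, SimpleGraph.mem_edgeSet, Finset.mem_insert, Finset.mem_singleton,
    Sym2.eq_iff, blk]
  grind

lemma gapR (hn : 4 ≤ n) (d : Fin n → ℕ) (f : Realization n d → ℝ) (hf : ∑ x, f x = 0) :
    ip f f ≤ (2 ^ 20 * (n : ℝ) ^ 8) * ∑ x : Realization n d, ∑ y : Realization n d,
      moveProb x.1 y.1 * (f x - f y) ^ 2 := by
  have g := gap (f ∘ toR) (by rw [← hf]; exact toR_bij.sum_comp f)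
  have e : ip (f ∘ toR) (f ∘ toR) = ip f f := toR_bij.sum_comp fun G => f G * f G
  obtain ⟨E, hE⟩ : ∃ E, E = ∑ x : Realization n d, ∑ y : Realization n d,
    moveProb x.1 y.1 * (f x - f y) ^ 2 := ⟨_, rfl⟩
  have nn : ∀ x y : Realization n d, 0 ≤ moveProb x.1 y.1 * (f x - f y) ^ 2 := fun x y =>
    mul_nonneg (moveProb_nonneg _ _) (sq_nonneg _)
  have b : ∀ i j k l, EE i j k l (f ∘ toR) ≤ (2 ^ 20 * (n : ℝ) ^ 4) * E := by
    intro i j k l
    rw [hE, ← toR_bij.sum_comp, Finset.mul_sum]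
    refine Finset.sum_le_sum fun x _ => ?_
    have s := Finset.single_le_sum (fun y _ => nn (toR x) y) (mem_univ (toR (tau i j k l x)))
    refine le_trans ?_ (mul_le_mul_of_nonneg_left s (by positivity))
    by_cases h : diag i j k l x
    swap
    · simp [tau_neg h]
    have hD : Dist i j k l := ⟨h.ne.1, h.ne.2, h.1, h.2.1, h.2.2.1, h.2.2.2.1⟩
    have hc : ({i, j, k, l} : Finset (Fin n)).card = 4 := by
      obtain ⟨n1, n2, n3, n4, n5, n6⟩ := hD
      rw [Finset.card_insert_of_notMem (by simp [*]), Finset.card_insert_of_notMem (by simp [*]),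
        Finset.card_pair n2]
    have hp := pair_mem hD (S := {i, j, k, l}) (by simp)
    have : 1 ≤ (2 ^ 20 * (n : ℝ) ^ 4) * moveProb (toR x).1 (toR (tau i j k l x)).1 := by
      cases h1 : x.1 i k
      · have := moveProb_ge hn (toR (tau i j k l x)).1 hc hp
        rwa [← toR_tau (diag_tau h) (by rw [tau_on h (by simp [blk]), h1]; rfl), tau_invol,
          moveProb_symm] at this
      · have := moveProb_ge hn (toR x).1 hc hp
        rwa [← toR_tau h h1] at this
    simp only [Function.comp_apply]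
    nlinarith [sq_nonneg (f (toR x) - f (toR (tau i j k l x)))]
  have s := Finset.sum_le_sum fun i (_ : i ∈ univ) => Finset.sum_le_sum fun j (_ : j ∈ univ) =>
    Finset.sum_le_sum fun k (_ : k ∈ univ) => Finset.sum_le_sum fun l (_ : l ∈ univ) => b i j k l
  simp only [Finset.sum_const, Finset.card_univ, Fintype.card_fin, nsmul_eq_mul] at s
  rw [← hE, ← e]
  have := ip_self_nonneg (f ∘ toR)
  have e2 : (n : ℝ) * (n * (n * (n * (2 ^ 20 * n ^ 4 * E)))) = 2 ^ 20 * n ^ 8 * E := by ring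
  linarith

lemma cardR (d : Fin n → ℕ) : (Fintype.card (Realization n d) : ℝ) ≤ 2 ^ (n ^ 2) := by
  have h0 : Fintype.card (Gr fun i => (d i : ℤ)) = Fintype.card (Realization n d) :=
    Fintype.card_of_bijective toR_bij
  have h1 : Fintype.card (Gr fun i => (d i : ℤ)) ≤ Fintype.card (Fin n → Fin n → Bool) :=
    Fintype.card_le_of_injective (fun x => x.1) fun x y h => Subtype.ext h
  have h2 : Fintype.card (Fin n → Fin n → Bool) = 2 ^ (n ^ 2) := by
    simp [← pow_mul, sq]
  rw [h0, h2] at h1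
  exact_mod_cast h1

theorem main (hn : 4 ≤ n) (d : Fin n → ℕ) [Nonempty (Realization n d)] (M : ℕ)
    (hM : M = 2 ^ 20 * n ^ 8) (G : Realization n d) :
    (1 / 2) * ∑ G', |(switchChain n d ^ (4 * M * (n ^ 2 + 2))) G G' -
      1 / (Fintype.card (Realization n d) : ℝ)| ≤ 1 / 4 := by
  have hn0 : 0 < n := by omega
  have h1 : 1 ≤ M := by rw [hM]; exact Nat.succ_le_of_lt (by positivity)
  have h2 : (M : ℝ) = 2 ^ 20 * (n : ℝ) ^ 8 := by rw [hM]; push_cast; ring
  obtain ⟨K, hK⟩ : ∃ K : Matrix (Realization n d) (Realization n d) ℝ,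
    ∀ x y, K x y = moveProb x.1 y.1 := ⟨fun x y => moveProb x.1 y.1, fun _ _ => rfl⟩
  refine mixing K (switchChain n d) (fun x y => ?_) (fun x y => ?_) (fun x => ?_) (fun x y => ?_)
    M (n ^ 2) h1 (cardR d) (fun f hf => ?_) G
  · rw [hK, hK, moveProb_symm]
  · rw [hK]; exact moveProb_nonneg _ _
  · simp only [hK]; exact moveProb_sum hn x
  · rw [hK, switchChain]
  · simp only [hK, h2]; exact gapR hn d f hf

end Vale.Agent.P335
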