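import Vale.Agent.P335.Triple

namespace Vale.Agent.P335

open Finset

variable {V : Type*} [Fintype V] [DecidableEq V] {d : V → ℤ}

lemma sum_D {D : Finset V} (F : V → V → ℝ) (h : ∀ k l, ¬ (k ∈ D ∧ l ∈ D) → F k l = 0) :
    ∑ k, ∑ l, F k l = ∑ k ∈ D, ∑ l ∈ D, F k l := by
  rw [← Finset.sum_subset (Finset.subset_univ D) fun k _ hk =>
    Finset.sum_eq_zero fun l _ => h k l fun e => hk e.1]
  exact Finset.sum_congr rfl fun k _ => (Finset.sum_subset (Finset.subset_univ D)
    fun l _ hl => h k l fun e => hl e.2).symm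

lemma Q_tau (i j k l : V) (f : Gr d → ℝ) (x : Gr d) :
    Q i j f x - Q i j f (tau i j k l x) = f x - f (tau i j k l x) := by
  have := P_congr f (tau_agree i j k l x)
  simp only [Q, Pi.sub_apply, this]; ring

lemma blN {i j : V} (hij : i ≠ j) (f : Gr d → ℝ) :
    ∑ k, ∑ l, NN i j k l f ≤ ∑ k, ∑ l, EE i j k l f := by
  classical
  have sw : ∀ F : V → V → Gr d → ℝ, ∀ K : Finset (Gr d),
      ∑ k, ∑ l, ∑ x ∈ K, F k l x = ∑ x ∈ K, ∑ k, ∑ l, F k l x := fun F K => by
    rw [Finset.sum_comm (s := K)]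
    exact Finset.sum_congr rfl fun _ _ => Finset.sum_comm
  unfold NN EE
  rw [sw, sw]
  refine sum_le_of_cl (agree d (Fp i j)) fun x0 => ?_
  rw [← sw, ← sw]
  have key := (sliceG hij x0).bl (Q i j f) (sum_cl_Q _ f x0)
  simp only [Q_tau] at key
  rw [sum_D (D := Dp i j x0), sum_D (D := Dp i j x0)]
  · refine le_trans (le_of_eq ?_) key
    refine Finset.sum_congr rfl fun k hk => Finset.sum_congr rfl fun l hl => ?_
    have hd : ∀ x ∈ cl (agree d (Fp i j)) x0, diag i j k l x ↔ x.1 i k ≠ x.1 i l := fun x hx => by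
      rw [diag_iff hij hx]; simp only [hk, hl, true_and]
    obtain ⟨y, hy⟩ : ∃ y, y = ∑ x ∈ cl (agree d (Fp i j)) x0,
      if x.1 i k ≠ x.1 i l then Q i j f x else 0 := ⟨_, rfl⟩
    obtain ⟨W, hW⟩ : ∃ W, W = ∑ x ∈ cl (agree d (Fp i j)) x0,
      if x.1 i k ≠ x.1 i l then (1 : ℝ) else 0 := ⟨_, rfl⟩
    rw [← hy, ← hW]
    have : ∀ x ∈ cl (agree d (Fp i j)) x0,
        (if diag i j k l x then (P (sA d i j k l) (Q i j f) x) ^ 2 else 0) =
          (y / W) ^ 2 * if x.1 i k ≠ x.1 i l then (1 : ℝ) else 0 := by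
      intro x hx
      by_cases h : diag i j k l x
      · rw [if_pos h, if_pos ((hd x hx).1 h), mul_one, P_apply]
        have e : cl (sA d i j k l) x =
            (cl (agree d (Fp i j)) x0).filter fun x => x.1 i k ≠ x.1 i l := by
          ext z
          rw [Finset.mem_filter, mem_cl, ← cl_congr (mem_cl.1 hx), mem_cl]
          constructor
          · rintro ⟨a, b⟩
            exact ⟨a, (hd z (mem_cl.2 ((agree d _).trans' a (mem_cl.1 hx)))).1 (b.2 h)⟩
          · rintro ⟨a, b⟩
            exact ⟨a, iff_of_true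
              ((hd z (mem_cl.2 ((agree d _).trans' a (mem_cl.1 hx)))).2 b) h⟩
        rw [e, hy, hW, ← Finset.sum_filter, ← Finset.sum_filter]
        simp
      · rw [if_neg h, if_neg fun e => h ((hd x hx).2 e), mul_zero]
    rw [Finset.sum_congr rfl this, ← Finset.mul_sum, ← hW]
    by_cases h0 : W = 0
    · simp [h0]
    · field_simp
  · intro k l h
    refine Finset.sum_eq_zero fun x hx => ?_
    rw [tau_neg fun e => h ⟨((diag_iff hij hx).1 e).1, ((diag_iff hij hx).1 e).2.1⟩]
    simp
  · intro k l h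
    refine Finset.sum_eq_zero fun x hx => ?_
    rw [if_neg fun e => h ⟨((diag_iff hij hx).1 e).1, ((diag_iff hij hx).1 e).2.1⟩]

lemma poinc {i j : V} (hij : i ≠ j) (f : Gr d → ℝ) :
    ip (Q i j f) (Q i j f) ≤ ∑ k, ∑ l, EE i j k l f := by
  obtain ⟨T, hT⟩ : ∃ T : (Gr d → ℝ) →ₗ[ℝ] (Gr d → ℝ), T = ∑ k, ∑ l, (LinearMap.id -
    LinearMap.funLeft ℝ ℝ (tau i j k l)) := ⟨_, rfl⟩
  have hT' : ∀ f, T f = ∑ k, ∑ l, (f - f ∘ tau i j k l) := fun f => by
    simp only [hT, LinearMap.sum_apply, LinearMap.sub_apply, LinearMap.id_apply]; rfl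
  have := L1 T (fun f g => by
    simp only [hT', ip_sum_left, ip_sum_right, ip_sub_left, ip_sub_right,
      ip_comp (tau_invol i j _ _)]) 2 (Q i j f) (by
    intro v lam _ h
    by_cases hl : 2 ≤ lam
    · exact Or.inl hl
    right
    have : P (agree d (Fp i j)) v = v := by
      refine P_of_inv fun x y hxy => (sliceG hij y).eig v lam (not_le.1 hl) (fun z hz => ?_)
        (mem_cl.2 hxy) (self_mem_cl _ _)
      have := congrFun h z
      simp only [hT', Finset.sum_apply, Pi.sub_apply, Function.comp_apply, Pi.smul_apply,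
        smul_eq_mul] at this
      rw [← this, sum_D (D := Dp i j y)]
      intro k l h
      rw [tau_neg fun e => h ⟨((diag_iff hij hz).1 e).1, ((diag_iff hij hz).1 e).2.1⟩, sub_self]
    rw [← this, P_sa, Q, map_sub, P_idem, sub_self, ip_zero_right])
  rw [hT'] at this
  simp only [ip_sum_right] at this
  have e : ∀ k l, ip (Q i j f) (Q i j f - Q i j f ∘ tau i j k l) = 2 * EE i j k l f := by
    intro k l
    have a := ip_comp (tau_invol i j k l) (Q i j f ∘ tau i j k l) (Q i j f)
    rw [Function.comp_assoc, (tau_invol i j k l).comp_self, Function.comp_id] at a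
    have b : ip (Q i j f - Q i j f ∘ tau i j k l) (Q i j f - Q i j f ∘ tau i j k l) =
        4 * EE i j k l f := by
      unfold ip EE
      rw [Finset.mul_sum]
      refine Finset.sum_congr rfl fun x _ => ?_
      simp only [Pi.sub_apply, Function.comp_apply, Q_tau]; ring
    have c := ip_comm (Q i j f) (Q i j f ∘ tau i j k l)
    simp only [ip_sub_left, ip_sub_right] at b ⊢
    linarith
  simp only [e, ← Finset.mul_sum] at this
  linarith

/-- pair term -/
noncomputable def q (i j : V) (f : Gr d → ℝ) : Gr d → ℝ := if i = j then 0 else Q i j f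

lemma q_symm (i j : V) (f : Gr d → ℝ) : q i j f = q j i f := by
  simp only [q, eq_comm, Q_symm i j]

instance (i j k l : V) : Decidable (Dist i j k l) := by unfold Dist; infer_instance

lemma disj_sum (f : Gr d → ℝ) :
    0 ≤ ∑ i, ∑ j, ∑ k, ∑ l, if Dist i j k l then ip (q i j f) (q k l f) else 0 := by
  have nd : ∀ i j k l (x : Gr d), diag i j k l x → Dist i j k l := fun i j k l x h =>
    ⟨h.ne.1, h.ne.2, h.1, h.2.1, h.2.2.1, h.2.2.2.1⟩
  have h1 : ∀ i j k l, EE i j k l f - NN i j k l f / 2 - NN k l i j f / 2 ≤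
      if Dist i j k l then ip (q i j f) (q k l f) else 0 := by
    intro i j k l
    split_ifs with h
    · simpa only [q, h.1, h.2.1, if_false] using disj h f
    · have a : ∀ x : Gr d, ¬ diag i j k l x := fun x e => h (nd _ _ _ _ _ e)
      have b : ∀ x : Gr d, ¬ diag k l i j x := fun x e => a x (diag_symm e)
      simp [EE, NN, a, b, tau_neg]
  refine le_trans ?_ (Finset.sum_le_sum fun i _ => Finset.sum_le_sum fun j _ =>
    Finset.sum_le_sum fun k _ => Finset.sum_le_sum fun l _ => h1 i j k l)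
  have h2 : ∑ i, ∑ j, ∑ k, ∑ l, NN k l i j f = ∑ i, ∑ j, ∑ k, ∑ l, NN i j k l f := by
    simp only [← Fintype.sum_prod_type']
    rw [← Equiv.sum_comp (⟨fun p => (p.2.2.1, p.2.2.2, p.1, p.2.1),
      fun p => (p.2.2.1, p.2.2.2, p.1, p.2.1), fun _ => rfl, fun _ => rfl⟩ :
        V × V × V × V ≃ V × V × V × V)]
    rfl
  have h3 : ∑ i, ∑ j, ∑ k, ∑ l, NN i j k l f ≤ ∑ i, ∑ j, ∑ k, ∑ l, EE i j k l f := by
    refine Finset.sum_le_sum fun i _ => Finset.sum_le_sum fun j _ => ?_
    by_cases h : i = j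
    · have a : ∀ k l (x : Gr d), ¬ diag i j k l x := fun k l x e => e.ne.1 h
      simp [EE, NN, a, tau_neg]
    · exact blN h f
  simp only [Finset.sum_sub_distrib, ← Finset.sum_div, h2]
  linarith

lemma H2 (f : Gr d → ℝ) : 2 * ∑ i, ∑ j, ip (q i j f) (q i j f) ≤
    ip (∑ i, ∑ j, q i j f) (∑ i, ∑ j, q i j f) := by
  obtain ⟨c, hc⟩ : ∃ c : V → V → V → V → ℝ, c = fun i j k l => ip (q i j f) (q k l f) := ⟨_, rfl⟩
  have hc' : ∀ i j k l, ip (q i j f) (q k l f) = c i j k l := fun _ _ _ _ => by rw [hc]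
  have s1 : ∀ i j k l, c i j k l = c j i k l := fun i j k l => by rw [← hc', ← hc', q_symm i j]
  have s2 : ∀ i j k l, c i j k l = c i j l k := fun i j k l => by rw [← hc', ← hc', q_symm k l]
  have z1 : ∀ i k l, c i i k l = 0 := fun i k l => by simp [← hc', q, ip_zero_left]
  have z2 : ∀ i j k, c i j k k = 0 := fun i j k => by simp [← hc', q, ip_zero_right]
  have hd := disj_sum f
  simp only [ip_sum_left, ip_sum_right, hc'] at hd ⊢
  obtain ⟨A, hA⟩ : ∃ A, A = ∑ i, ∑ j, c i j i j := ⟨_, rfl⟩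
  obtain ⟨X, hX⟩ : ∃ X, X = ∑ i, ∑ j, ∑ l, c i j i l := ⟨_, rfl⟩
  have pt : ∀ i j k l, c i j k l = (if Dist i j k l then c i j k l else 0) +
      (if k = i then c i j i l else 0) + (if k = j then c j i j l else 0) +
      (if l = i then c i j i k else 0) + (if l = j then c j i j k else 0) -
      (if l = j then (if k = i then c i j i j else 0) else 0) -
      (if l = i then (if k = j then c i j i j else 0) else 0) := by
    intro i j k l
    by_cases h1 : i = j
    · subst h1; simp [z1]
    by_cases h2 : k = l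
    · subst h2
      by_cases h3 : k = i
      · subst h3; simp [z2, h1]
      by_cases h4 : k = j
      · subst h4; simp [z2, h3]
      · simp [z2, h3, h4]
    have h1' := Ne.symm h1
    have h2' := Ne.symm h2
    by_cases h3 : k = i
    · subst h3
      by_cases h4 : l = j
      · subst h4; simp [Dist, h1, h1', ← s1 k l, ← s2 k l k l]
      · simp [Dist, h1, h2', h4]
    by_cases h4 : k = j
    · subst h4
      by_cases h5 : l = i
      · subst h5; simp [Dist, h1, h1', s1 k l, s2 l k k l]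
      · simp [Dist, h3, h2', h5, s1 i k]
    by_cases h5 : l = i
    · subst h5; simp [Dist, h1, h3, h4, s2 l j k l]
    by_cases h6 : l = j
    · subst h6; simp [Dist, h3, h4, h5, s1 i l, s2 l i k l]
    · simp [Dist, h1, h2, h3, h4, h5, h6, Ne.symm h3, Ne.symm h4, Ne.symm h5, Ne.symm h6]
  have tot : ∑ k, ∑ l, ∑ i, ∑ j, c i j k l = ∑ i, ∑ j, ∑ k, ∑ l, c i j k l := by
    simp only [← Fintype.sum_prod_type']
    rw [← Equiv.sum_comp (⟨fun p => (p.2.2.1, p.2.2.2, p.1, p.2.1),
      fun p => (p.2.2.1, p.2.2.2, p.1, p.2.1), fun _ => rfl, fun _ => rfl⟩ :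
        V × V × V × V ≃ V × V × V × V)]
    rfl
  have hX' : ∑ i, ∑ j, ∑ l, c j i j l = X := by rw [hX, Finset.sum_comm]
  have tot2 : ∑ i, ∑ j, ∑ k, ∑ l, c i j k l =
      (∑ i, ∑ j, ∑ k, ∑ l, if Dist i j k l then c i j k l else 0) + 4 * X - 2 * A := by
    rw [Finset.sum_congr rfl fun i _ => Finset.sum_congr rfl fun j _ =>
      Finset.sum_congr rfl fun k _ => Finset.sum_congr rfl fun l _ => pt i j k l]
    simp only [Finset.sum_add_distrib, Finset.sum_sub_distrib, Finset.sum_ite_eq',
      Finset.sum_ite_irrel, Finset.sum_const_zero, mem_univ, if_true, ← hA, ← hX, hX']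
    ring
  have tr : ∀ i j k, (if k = j then c i j i j else 0) + (if k = i then c i j i j else 0) +
      (if j = i then c k i k i else 0) ≤ c i j i k + c j i j k + c k i k j := by
    intro i j k
    by_cases h1 : j = i
    · subst h1; simp [z1]
    by_cases h2 : k = j
    · subst h2; simp [z1, z2, h1]
    by_cases h3 : k = i
    · subst h3; simp [z1, z2, h1, h2, s1 j k, s2 k j j k]
    · have := triple (Ne.symm h1) (Ne.symm h3) (Ne.symm h2) f
      simpa [h1, h2, h3, ← hc', q, Ne.symm h1, Ne.symm h2, Ne.symm h3] using this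
  have tr2 := Finset.sum_le_sum fun i (_ : i ∈ univ) => Finset.sum_le_sum
    fun j (_ : j ∈ univ) => Finset.sum_le_sum fun k (_ : k ∈ univ) => tr i j k
  have r1 : ∑ i, ∑ j, ∑ k, c k i k j = X := by
    rw [hX]
    simp only [← Fintype.sum_prod_type']
    rw [← Equiv.sum_comp (⟨fun p => (p.2.1, p.2.2, p.1),
      fun p => (p.2.2, p.1, p.2.1), fun _ => rfl, fun _ => rfl⟩ : V × V × V ≃ V × V × V)]
    rfl
  have r2 : ∑ i, ∑ k, c k i k i = A := by rw [hA, Finset.sum_comm]
  simp only [Finset.sum_add_distrib, Finset.sum_ite_eq', Finset.sum_ite_irrel,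
    Finset.sum_const_zero, mem_univ, if_true, ← hA, ← hX, hX', r1, r2] at tr2
  rw [tot, tot2, ← hA]
  linarith

theorem gap (f : Gr d → ℝ) (hf : ∑ x, f x = 0) :
    2 * ip f f ≤ ∑ i, ∑ j, ∑ k, ∑ l, EE i j k l f := by
  obtain ⟨T, hT⟩ : ∃ T : (Gr d → ℝ) →ₗ[ℝ] (Gr d → ℝ), T = ∑ i, ∑ j, if i = j then 0 else
    (LinearMap.id - P (agree d (Fp i j))) := ⟨_, rfl⟩
  have hT' : ∀ f, T f = ∑ i, ∑ j, q i j f := fun f => by
    simp only [hT, LinearMap.sum_apply, q]
    refine Finset.sum_congr rfl fun i _ => Finset.sum_congr rfl fun j _ => ?_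
    split_ifs <;> rfl
  have sa : ∀ i j (f g : Gr d → ℝ), ip (q i j f) g = ip f (q i j g) := by
    intro i j f g
    unfold q
    split_ifs
    · rw [ip_zero_left, ip_zero_right]
    · simp only [Q, ip_sub_left, ip_sub_right, P_sa]
  have id : ∀ i j (f : Gr d → ℝ), ip f (q i j f) = ip (q i j f) (q i j f) := by
    intro i j f
    unfold q
    split_ifs
    · rw [ip_zero_left, ip_zero_right]
    · unfold Q
      rw [ip_sub_left, P_sa, map_sub, P_idem, sub_self, ip_zero_right, sub_zero]
  have hf' : ∀ f, ip f (T f) = ∑ i, ∑ j, ip (q i j f) (q i j f) := fun f => by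
    simp only [hT', ip_sum_right, id]
  have := L1 T (fun f g => by simp only [hT', ip_sum_left, ip_sum_right, sa]) 2 f (by
    intro v lam hv h
    have a := H2 v
    have nn : ∀ i j, 0 ≤ ip (q i j v) (q i j v) := fun i j => ip_self_nonneg _
    have b : 0 ≤ ip v (T v) := by
      rw [hf']; exact Finset.sum_nonneg fun _ _ => Finset.sum_nonneg fun _ _ => nn _ _
    rw [← hf', ← hT'] at a
    have p : 0 < ip v v := (ip_self_nonneg v).lt_of_ne fun e => hv (ip_self_eq_zero e.symm)
    by_cases hl : lam = 0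
    · right
      have z := hf' v
      rw [h, hl, zero_smul, ip_zero_right] at z
      have z2 : ∀ i j, q i j v = 0 := fun i j => ip_self_eq_zero
        ((Finset.sum_eq_zero_iff_of_nonneg fun _ _ => nn _ _).1
          ((Finset.sum_eq_zero_iff_of_nonneg fun _ _ => Finset.sum_nonneg fun _ _ => nn _ _).1
            z.symm i (mem_univ _)) j (mem_univ _))
      have cn := connected v fun i j k l x => by
        by_cases e : i = j
        · rw [tau_neg fun h => h.ne.1 e]
        · have := Q_tau i j k l v x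
          have z3 := z2 i j
          rw [q, if_neg e] at z3
          rw [z3] at this
          simp only [Pi.zero_apply] at this
          linarith
      obtain ⟨x0, -⟩ := Function.ne_iff.1 hv
      unfold ip
      rw [Finset.sum_congr rfl fun x _ => by rw [cn x x0], ← Finset.mul_sum, hf, mul_zero]
    · left
      rw [h, ip_smul_left, ip_smul_right] at a
      rw [h, ip_smul_right] at b
      have l0 : 0 < lam := lt_of_le_of_ne (nonneg_of_mul_nonneg_left b p) (Ne.symm hl)
      have := mul_pos l0 p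
      by_contra hc
      nlinarith)
  refine this.trans ?_
  rw [hf']
  refine Finset.sum_le_sum fun i _ => Finset.sum_le_sum fun j _ => ?_
  unfold q
  split_ifs with e
  · rw [ip_zero_left]
    exact Finset.sum_nonneg fun _ _ => Finset.sum_nonneg fun _ _ =>
      Finset.sum_nonneg fun _ _ => sq_nonneg _
  · exact poinc e f

end Vale.Agent.P335
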