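import Vale.Agent.P335.Three

namespace Vale.Agent.P335

open Finset

variable {V : Type*} [Fintype V] [DecidableEq V]

lemma sum_off' {f g : V → Bool} (h0 : ∑ b, io (f b) = ∑ b, io (g b)) (S : Finset V)
    (h : ∀ c, c ∉ S → f c = g c) : ∑ c ∈ S, io (f c) = ∑ c ∈ S, io (g c) := by
  have h1 := Finset.sum_add_sum_compl S fun c => io (f c)
  have h2 := Finset.sum_add_sum_compl S fun c => io (g c)
  have : ∑ c ∈ Sᶜ, io (f c) = ∑ c ∈ Sᶜ, io (g c) :=
    Finset.sum_congr rfl fun c hc => by rw [h c (Finset.mem_compl.1 hc)]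
  omega

lemma pair_iff {f g : V → Bool} {k l : V} (hkl : k ≠ l) (h : ∀ c, c ≠ k → c ≠ l → f c = g c) :
    ∑ b, io (f b) = ∑ b, io (g b) ↔ io (f k) + io (f l) = io (g k) + io (g l) := by
  have h1 := Finset.sum_add_sum_compl {k, l} fun c => io (f c)
  have h2 := Finset.sum_add_sum_compl {k, l} fun c => io (g c)
  have : ∑ c ∈ ({k, l} : Finset V)ᶜ, io (f c) = ∑ c ∈ ({k, l} : Finset V)ᶜ, io (g c) :=
    Finset.sum_congr rfl fun c hc => by
      simp only [Finset.mem_compl, Finset.mem_insert, Finset.mem_singleton, not_or] at hc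
      rw [h c hc.1 hc.2]
  rw [Finset.sum_pair hkl] at h1 h2
  omega

/-- graphs with degrees `d` as adjacency matrices -/
def Gr (d : V → ℤ) :=
  {x : V → V → Bool // (∀ a b, x a b = x b a) ∧ (∀ a, x a a = false) ∧ ∀ a, ∑ b, io (x a b) = d a}

variable {d : V → ℤ}

noncomputable instance : Fintype (Gr d) := by
  unfold Gr; exact Fintype.ofFinite _

omit [DecidableEq V] in
lemma Gr.sy (x : Gr d) (a b : V) : x.1 a b = x.1 b a := x.2.1 a b

omit [DecidableEq V] in
lemma Gr.deg (x y : Gr d) (a : V) : ∑ b, io (x.1 a b) = ∑ b, io (y.1 a b) := by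
  rw [x.2.2.2, y.2.2.2]

/-- agree away from the pairs in `F` -/
def agree (d : V → ℤ) (F : V → V → Prop) : Setoid (Gr d) where
  r x y := ∀ a b, ¬ F a b → ¬ F b a → x.1 a b = y.1 a b
  iseqv := ⟨fun _ _ _ _ _ => rfl, fun h a b h1 h2 => (h a b h1 h2).symm,
    fun h h' a b h1 h2 => (h a b h1 h2).trans (h' a b h1 h2)⟩

omit [DecidableEq V] in
lemma agree_mono {F F' : V → V → Prop} (h : ∀ a b, F a b → F' a b) (x y : Gr d)
    (hxy : (agree d F).r x y) : (agree d F').r x y :=
  fun a b h1 h2 => hxy a b (fun e => h1 (h _ _ e)) (fun e => h2 (h _ _ e))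

omit [DecidableEq V] in
lemma comm_agree {F F' : V → V → Prop} (h : ∀ a b, F a b → ¬ F' a b ∧ ¬ F' b a) (f : Gr d → ℝ) :
    P (agree d F) (P (agree d F') f) = P (agree d F') (P (agree d F) f) := by
  classical
  refine P_comm (s := agree d F) (t := agree d F') (fun x y h1 h2 => ?_)
    (fun x x' y h1 h2 => ?_) f
  · refine Subtype.ext (funext fun a => funext fun b => ?_)
    by_cases e1 : F a b
    · exact h2 a b (h a b e1).1 (h a b e1).2
    by_cases e2 : F b a
    · exact h2 a b (h b a e2).2 (h b a e2).1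
    exact h1 a b e1 e2
  · refine ⟨⟨fun a b => if F a b ∨ F b a then y.1 a b else x'.1 a b, fun a b => ?_, fun a => ?_,
      fun a => ?_⟩, fun a b e1 e2 => ?_, fun a b e1 e2 => ?_⟩
    · simp only [or_comm (a := F a b), y.sy a b, x'.sy a b]
    · simp only [y.2.2.1, x'.2.2.1, ite_self]
    · have : ∀ b, io (if F a b ∨ F b a then y.1 a b else x'.1 a b) =
          io (y.1 a b) + io (x'.1 a b) - io (x.1 a b) := by
        intro b
        split_ifs with e
        · have : x.1 a b = x'.1 a b := by
            rcases e with e | e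
            exacts [h1 a b (h a b e).1 (h a b e).2, h1 a b (h b a e).2 (h b a e).1]
          rw [this]; ring
        · rw [not_or] at e
          rw [h2 a b e.1 e.2]; ring
      simp only [this, Finset.sum_sub_distrib, Finset.sum_add_distrib, x.2.2.2, y.2.2.2, x'.2.2.2]
      ring
    · simp [e1, e2]
    · simp only
      split_ifs with e
      · rfl
      · rw [not_or] at e
        rw [← h1 a b e1 e2, h2 a b e.1 e.2]

/-- pairs joining `i` or `j` to another vertex -/
def Fp (i j a b : V) : Prop := (a = i ∨ a = j) ∧ b ≠ i ∧ b ≠ j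

/-- the two by two block -/
def blk (i j k l a b : V) : Prop := (a = i ∨ a = j) ∧ (b = k ∨ b = l)

instance (i j k l a b : V) : Decidable (blk i j k l a b) := by unfold blk; infer_instance

/-- switchable block -/
def diag (i j k l : V) (x : Gr d) : Prop :=
  i ≠ k ∧ i ≠ l ∧ j ≠ k ∧ j ≠ l ∧ x.1 i k = x.1 j l ∧ x.1 i l = x.1 j k ∧ x.1 i k ≠ x.1 i l

instance (i j k l : V) : DecidablePred (diag (d := d) i j k l) := fun x => by
  unfold diag; infer_instance

omit [DecidableEq V] in
lemma diag.ne {i j k l : V} {x : Gr d} (h : diag i j k l x) : i ≠ j ∧ k ≠ l := by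
  obtain ⟨-, -, -, -, a, b, c⟩ := h
  constructor
  · rintro rfl; exact c a
  · rintro rfl; exact c rfl

omit [DecidableEq V] in
lemma diag_symm {i j k l : V} {x : Gr d} (h : diag i j k l x) : diag k l i j x := by
  obtain ⟨n1, n2, n3, n4, a, b, c⟩ := h
  refine ⟨n1.symm, n3.symm, n2.symm, n4.symm, ?_, ?_, ?_⟩
  · rw [x.sy k, x.sy l, a]
  · rw [x.sy k, x.sy l, b]
  · rw [x.sy k, x.sy k, ← b]; exact c

/-- the switch -/
def tau (i j k l : V) (x : Gr d) : Gr d :=
  if h : diag i j k l x then
    ⟨fun a b => if blk i j k l a b ∨ blk i j k l b a then !x.1 a b else x.1 a b,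
      fun a b => by simp only [or_comm (a := blk i j k l a b), x.sy a b], fun a => by
        obtain ⟨n1, n2, n3, n4, -⟩ := h
        have : ¬ blk i j k l a a := by rintro ⟨rfl | rfl, rfl | rfl⟩ <;> contradiction
        simp [this, x.2.2.1], fun a => by
        obtain ⟨n5, n6⟩ := h.ne
        have h' := diag_symm h
        obtain ⟨n1, n2, n3, n4, e1, e2, e3⟩ := h
        obtain ⟨-, -, -, -, e4, e5, e6⟩ := h'
        rw [← x.2.2.2 a]
        by_cases c1 : a = i ∨ a = j
        · refine (pair_iff n6 fun c c2 c3 => ?_).2 ?_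
          · rcases c1 with rfl | rfl <;> simp [blk, *]
          · rcases c1 with rfl | rfl
            · revert e3; simp only [blk, true_or, or_true, and_self, if_true]
              cases x.1 a k <;> cases x.1 a l <;> simp
            · revert e3; simp only [blk, true_or, or_true, and_self, if_true, e1, e2]
              cases x.1 a k <;> cases x.1 a l <;> simp
        by_cases c2 : a = k ∨ a = l
        · refine (pair_iff n5 fun c c3 c4 => ?_).2 ?_
          · simp [blk, *]
          · rcases c2 with rfl | rfl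
            · revert e6; simp only [blk, true_or, or_true, and_self, if_true]
              cases x.1 a i <;> cases x.1 a j <;> simp
            · revert e6; simp only [blk, true_or, or_true, and_self, if_true, e4, e5]
              cases x.1 a i <;> cases x.1 a j <;> simp
        · simp [blk, c1, c2]⟩
  else x

lemma tau_neg {i j k l : V} {x : Gr d} (h : ¬ diag i j k l x) : tau i j k l x = x := by
  simp [tau, h]

lemma tau_val {i j k l : V} {x : Gr d} (h : diag i j k l x) (a b : V) : (tau i j k l x).1 a b =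
    if blk i j k l a b ∨ blk i j k l b a then !x.1 a b else x.1 a b := by
  simp [tau, h]

lemma tau_off {i j k l : V} (x : Gr d) {a b : V} (h1 : ¬ blk i j k l a b)
    (h2 : ¬ blk i j k l b a) : (tau i j k l x).1 a b = x.1 a b := by
  by_cases h : diag i j k l x
  · simp [tau_val h, h1, h2]
  · rw [tau_neg h]

lemma tau_on {i j k l : V} {x : Gr d} (h : diag i j k l x) {a b : V} (h1 : blk i j k l a b) :
    (tau i j k l x).1 a b = !x.1 a b := by
  simp [tau_val h, h1]

lemma diag_tau {i j k l : V} {x : Gr d} (h : diag i j k l x) : diag i j k l (tau i j k l x) := by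
  have h' := h
  obtain ⟨n1, n2, n3, n4, e1, e2, e3⟩ := h'
  refine ⟨n1, n2, n3, n4, ?_, ?_, ?_⟩
  · rw [tau_on h (by simp [blk]), tau_on h (by simp [blk]), e1]
  · rw [tau_on h (by simp [blk]), tau_on h (by simp [blk]), e2]
  · rw [tau_on h (by simp [blk]), tau_on h (by simp [blk])]; simpa using e3

lemma tau_invol (i j k l : V) : Function.Involutive (tau (d := d) i j k l) := by
  intro x
  by_cases h : diag i j k l x
  · refine Subtype.ext (funext fun a => funext fun b => ?_)
    rw [tau_val (diag_tau h), tau_val h]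
    split_ifs <;> simp
  · rw [tau_neg h, tau_neg h]

lemma diag_tau_iff {i j k l : V} (x : Gr d) : diag i j k l (tau i j k l x) ↔ diag i j k l x :=
  ⟨fun h => by simpa [tau_invol i j k l x] using diag_tau h, diag_tau⟩

lemma tau_symm (i j k l : V) : tau (d := d) k l i j = tau i j k l := by
  funext x
  by_cases h : diag i j k l x
  · refine Subtype.ext (funext fun a => funext fun b => ?_)
    rw [tau_val (diag_symm h), tau_val h]
    simp only [blk, and_comm, or_comm]
  · rw [tau_neg h, tau_neg fun h' => h (diag_symm h')]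

lemma tau_agree (i j k l : V) (x : Gr d) : (agree d (Fp i j)).r (tau i j k l x) x := by
  by_cases h : diag i j k l x
  · obtain ⟨n1, n2, n3, n4, -⟩ := h
    have : ∀ a b, blk i j k l a b → Fp i j a b := by
      rintro a b ⟨h1, rfl | rfl⟩
      exacts [⟨h1, n1.symm, n3.symm⟩, ⟨h1, n2.symm, n4.symm⟩]
    exact fun a b h1 h2 => tau_off x (fun e => h1 (this _ _ e)) (fun e => h2 (this _ _ e))
  · rw [tau_neg h]

lemma colsum {i j : V} (hij : i ≠ j) {x y : Gr d} (h : (agree d (Fp i j)).r x y) {u : V}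
    (h1 : u ≠ i) (h2 : u ≠ j) : io (x.1 i u) + io (x.1 j u) = io (y.1 i u) + io (y.1 j u) := by
  rw [x.sy i, x.sy j, y.sy i, y.sy j]
  exact (pair_iff hij fun c c1 c2 => h u c (by simp [Fp, h1, h2]) (by simp [Fp, c1, c2])).1
    (x.deg y u)

/-- vertices adjacent to exactly one of `i`, `j` -/
def Dp (i j : V) (x : Gr d) : Finset V :=
  univ.filter fun u => u ≠ i ∧ u ≠ j ∧ io (x.1 i u) + io (x.1 j u) = 1

lemma mem_Dp {i j u : V} {x : Gr d} :
    u ∈ Dp i j x ↔ u ≠ i ∧ u ≠ j ∧ io (x.1 i u) + io (x.1 j u) = 1 := by simp [Dp]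

lemma diag_iff {i j k l : V} (hij : i ≠ j) {x0 x : Gr d} (hx : x ∈ cl (agree d (Fp i j)) x0) :
    diag i j k l x ↔ k ∈ Dp i j x0 ∧ l ∈ Dp i j x0 ∧ x.1 i k ≠ x.1 i l := by
  rw [mem_Dp, mem_Dp]
  constructor
  · rintro ⟨n1, n2, n3, n4, e1, e2, e3⟩
    rw [← colsum hij (mem_cl.1 hx) n1.symm n3.symm, ← colsum hij (mem_cl.1 hx) n2.symm n4.symm,
      ← e1, ← e2]
    refine ⟨⟨n1.symm, n3.symm, ?_⟩, ⟨n2.symm, n4.symm, ?_⟩, e3⟩ <;> revert e3 <;>
      cases x.1 i k <;> cases x.1 i l <;> simp
  · rintro ⟨⟨n1, n2, e1⟩, ⟨n3, n4, e2⟩, e3⟩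
    rw [← colsum hij (mem_cl.1 hx) n1 n2] at e1
    rw [← colsum hij (mem_cl.1 hx) n3 n4] at e2
    refine ⟨n1.symm, n3.symm, n2.symm, n4.symm, ?_, ?_, e3⟩ <;> revert e1 e2 e3 <;>
      cases x.1 i k <;> cases x.1 i l <;> cases x.1 j k <;> cases x.1 j l <;> simp

lemma sliceG {i j : V} (hij : i ≠ j) (x0 : Gr d) :
    Slice (cl (agree d (Fp i j)) x0) (Dp i j x0) (fun x u => x.1 i u) (tau i j) := by
  have off : ∀ x ∈ cl (agree d (Fp i j)) x0, ∀ y ∈ cl (agree d (Fp i j)) x0, ∀ c, c ∉ Dp i j x0 →
      x.1 i c = y.1 i c := by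
    intro x hx y hy c hc
    by_cases c1 : c = i
    · rw [c1, x.2.2.1, y.2.2.1]
    by_cases c2 : c = j
    · rw [mem_cl.1 hx i c (by simp [Fp, c2]) (by simp [Fp]),
        mem_cl.1 hy i c (by simp [Fp, c2]) (by simp [Fp])]
    have a1 := colsum hij (mem_cl.1 hx) c1 c2
    have a2 := colsum hij (mem_cl.1 hy) c1 c2
    simp only [mem_Dp, ne_eq, c1, c2, not_false_eq_true, true_and] at hc
    have := io_bd (x.1 i c)
    have := io_bd (x.1 j c)
    have := io_bd (y.1 i c)
    have := io_bd (y.1 j c)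
    exact io_inj (by omega)
  refine ⟨fun l _ u _ x hx => mem_cl.2 ((agree d _).trans' (tau_agree _ _ _ _ _) (mem_cl.1 hx)),
    fun l hl u hu x hx k hk => ?_, fun x hx y hy h => ?_,
    fun x hx y hy => sum_off' (x.deg y i) _ (off x hx y hy)⟩
  · by_cases h : diag i j l u x
    · have e := h.2.2.2.2.2.2
      by_cases c1 : k = l
      · rw [c1, Equiv.swap_apply_left, tau_on h (by simp [blk])]
        revert e; cases x.1 i l <;> cases x.1 i u <;> simp
      by_cases c2 : k = u
      · rw [c2, Equiv.swap_apply_right, tau_on h (by simp [blk])]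
        revert e; cases x.1 i l <;> cases x.1 i u <;> simp
      · rw [Equiv.swap_apply_of_ne_of_ne c1 c2, tau_off x (by simp [blk, c1, c2])
          (by simp [blk, h.1, h.2.1])]
    · rw [tau_neg h]
      rw [diag_iff hij hx] at h
      simp only [hl, hu, true_and, not_not] at h
      rw [Equiv.swap_apply_def]
      split_ifs with c1 c2
      · rw [c1, h]
      · rw [c2, h]
      · rfl
  · have r1 : ∀ c, x.1 i c = y.1 i c := fun c => by
      by_cases hc : c ∈ Dp i j x0
      exacts [h c hc, off x hx y hy c hc]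
    have hxy := (agree d _).trans' (mem_cl.1 hx) ((agree d _).symm' (mem_cl.1 hy))
    have r2 : ∀ a b, Fp i j a b → x.1 a b = y.1 a b := by
      rintro a b ⟨rfl | rfl, c1, c2⟩
      · exact r1 b
      · have := colsum hij hxy c1 c2
        rw [r1 b] at this
        exact io_inj (by omega)
    refine Subtype.ext (funext fun a => funext fun b => ?_)
    by_cases e1 : Fp i j a b
    · exact r2 a b e1
    by_cases e2 : Fp i j b a
    · rw [x.sy, y.sy, r2 b a e2]
    exact hxy a b e1 e2

theorem connected (v : Gr d → ℝ) (h : ∀ i j k l x, v (tau i j k l x) = v x) (x y : Gr d) :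
    v x = v y := by
  suffices H : ∀ (U : Finset V) (x y : Gr d),
      (∀ a b, a ∉ U → x.1 a b = y.1 a b) → v x = v y from H univ x y (by simp)
  intro U
  induction U using Finset.induction_on with
  | empty =>
    intro x y hxy
    rw [show x = y from Subtype.ext (funext fun a => funext fun b => hxy a b (by simp))]
  | insert a U ha ih =>
  intro x y hxy
  obtain ⟨n, hn⟩ : ∃ n, (univ.filter fun c => x.1 a c ≠ y.1 a c).card = n := ⟨_, rfl⟩
  induction n using Nat.strong_induction_on generalizing x y with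
  | _ n ihn =>
  by_cases he : ∀ c, x.1 a c = y.1 a c
  · refine ih x y fun a' b h' => ?_
    by_cases e : a' = a
    · rw [e, he]
    · exact hxy a' b (by simp [e, h'])
  obtain ⟨W, hW⟩ : ∃ W, W = insert a U := ⟨_, rfl⟩
  rw [← hW] at hxy ihn
  have haW : a ∈ W := by simp [hW]
  have key : ∀ x y : Gr d, (∀ a b, a ∉ W → x.1 a b = y.1 a b) →
      (univ.filter fun c => x.1 a c ≠ y.1 a c).card = n → ∀ b c, x.1 a b = true →
      y.1 a b = false → x.1 a c = false → y.1 a c = true →
      ∑ w ∈ W, io (x.1 b w) ≤ ∑ w ∈ W, io (x.1 c w) → v x = v y := by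
    intro x y hxy hn b c b1 b2 c1 c2 hle
    have hb : b ∈ W := by
      by_contra hc
      have := hxy b a hc
      rw [x.sy, y.sy, b1, b2] at this
      simp at this
    have hc : c ∈ W := by
      by_contra hc
      have := hxy c a hc
      rw [x.sy, y.sy, c1, c2] at this
      simp at this
    have hbc : b ≠ c := by rintro rfl; simp [b1] at c1
    have hab : a ≠ b := by rintro rfl; simp [x.2.2.1] at b1
    have hac : a ≠ c := by rintro rfl; simp [y.2.2.1] at c2
    have hle' : ∑ w ∈ (W.erase b).erase c, io (x.1 b w) ≤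
        ∑ w ∈ (W.erase b).erase c, io (x.1 c w) := by
      have hc' : c ∈ W.erase b := Finset.mem_erase.2 ⟨hbc.symm, hc⟩
      have e1 := Finset.add_sum_erase W (fun w => io (x.1 b w)) hb
      have e2 := Finset.add_sum_erase W (fun w => io (x.1 c w)) hb
      have e3 := Finset.add_sum_erase _ (fun w => io (x.1 b w)) hc'
      have e4 := Finset.add_sum_erase _ (fun w => io (x.1 c w)) hc'
      simp only [x.2.2.1, io_false, x.sy c b] at e1 e2 e3 e4
      omega
    obtain ⟨w, hw, w1, w2⟩ := exists_up hle' (l := a) (by simp [hab, hac, haW])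
      (by rw [x.sy, b1]) (by rw [x.sy, c1])
    simp only [Finset.mem_erase] at hw
    have hd : diag b c a w x := ⟨hab.symm, hw.2.1.symm, hac.symm, hw.1.symm,
      by rw [x.sy, b1, w2], by rw [w1, x.sy, c1], by rw [x.sy, b1, w1]; simp⟩
    rw [← h b c a w x]
    refine ihn _ ?_ _ _ (fun a' b' h' => ?_) rfl
    · rw [← hn]
      refine Finset.card_lt_card ⟨fun k hk => ?_, fun hc => ?_⟩
      · simp only [Finset.mem_filter, mem_univ, true_and] at hk ⊢
        by_cases k1 : k = b
        · rw [k1, b1, b2]; simp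
        by_cases k2 : k = c
        · rw [k2, c1, c2]; simp
        rwa [tau_off x (by simp [blk, hab, hac]) (by simp [blk, k1, k2])] at hk
      · have : b ∈ univ.filter fun c => x.1 a c ≠ y.1 a c := by simp [b1, b2]
        have := (Finset.mem_filter.1 (hc this)).2
        rw [Gr.sy, tau_on hd (by simp [blk]), x.sy, b1, b2] at this
        simp at this
    · rw [tau_off x, hxy a' b' h']
      · rintro ⟨rfl | rfl, -⟩ <;> contradiction
      · rintro ⟨-, rfl | rfl⟩
        exacts [h' haW, h' hw.2.2]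
  have : ∃ b c, x.1 a b = true ∧ y.1 a b = false ∧ x.1 a c = false ∧ y.1 a c = true := by
    push Not at he
    obtain ⟨k, hne⟩ := he
    cases h1 : x.1 a k
    · have h2 : y.1 a k = true := by revert hne; rw [h1]; cases y.1 a k <;> simp
      obtain ⟨u, -, a1, a2⟩ := exists_up (y.deg x a).le (mem_univ k) h2 h1
      exact ⟨u, k, a2, a1, h1, h2⟩
    · have h2 : y.1 a k = false := by revert hne; rw [h1]; cases y.1 a k <;> simp
      obtain ⟨u, -, a1, a2⟩ := exists_up (x.deg y a).le (mem_univ k) h1 h2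
      exact ⟨k, u, h1, h2, a1, a2⟩
  obtain ⟨b, c, b1, b2, c1, c2⟩ := this
  have hs : ∀ b, ∑ w ∈ W, io (x.1 b w) = ∑ w ∈ W, io (y.1 b w) := fun b =>
    sum_off' (x.deg y b) W fun c hc => by rw [x.sy, y.sy, hxy c b hc]
  rcases le_total (∑ w ∈ W, io (x.1 b w)) (∑ w ∈ W, io (x.1 c w)) with hle | hle
  · exact key x y hxy hn b c b1 b2 c1 c2 hle
  · refine (key y x (fun a b h => (hxy a b h).symm) ?_ c b c2 c1 b2 b1 (by rwa [← hs, ← hs])).symm
    simpa only [ne_comm] using hn

end Vale.Agent.P335
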