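import Vale.Agent.P335.Spec

namespace Vale.Agent.P335

open Finset

/-- integer value of a bit -/
def io (b : Bool) : ℤ := cond b 1 0

@[simp] lemma io_true : io true = 1 := rfl
@[simp] lemma io_false : io false = 0 := rfl

lemma io_inj {a b : Bool} (h : io a = io b) : a = b := by
  revert a b; decide

lemma exists_up {V : Type*} {D : Finset V} {a b : V → Bool}
    (h : ∑ k ∈ D, io (a k) ≤ ∑ k ∈ D, io (b k)) {l : V} (hl : l ∈ D) (h1 : a l = true)
    (h2 : b l = false) : ∃ u ∈ D, a u = false ∧ b u = true := by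
  by_contra hc
  push Not at hc
  have : ∑ k ∈ D, io (b k) < ∑ k ∈ D, io (a k) := by
    refine Finset.sum_lt_sum (fun k hk => ?_) ⟨l, hl, by simp [h1, h2]⟩
    have := hc k hk
    revert this
    cases a k <;> cases b k <;> simp
  omega

variable {Ω V : Type*} [DecidableEq V]

/-- abstract slice of the cube with transpositions acting -/
structure Slice (K : Finset Ω) (D : Finset V) (z : Ω → V → Bool) (t : V → V → Ω → Ω) : Prop where
  mem : ∀ l ∈ D, ∀ u ∈ D, ∀ x ∈ K, t l u x ∈ K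
  val : ∀ l ∈ D, ∀ u ∈ D, ∀ x ∈ K, ∀ k ∈ D, z (t l u x) k = z x (Equiv.swap l u k)
  ext : ∀ x ∈ K, ∀ y ∈ K, (∀ k ∈ D, z x k = z y k) → x = y
  cnt : ∀ x ∈ K, ∀ y ∈ K, ∑ k ∈ D, io (z x k) = ∑ k ∈ D, io (z y k)

lemma swap_mem {D : Finset V} {l u k : V} (hl : l ∈ D) (hu : u ∈ D) (hk : k ∈ D) :
    Equiv.swap l u k ∈ D := by
  rw [Equiv.swap_apply_def]; split_ifs <;> assumption

variable {K : Finset Ω} {D : Finset V} {z : Ω → V → Bool} {t : V → V → Ω → Ω}

lemma Slice.invol (S : Slice K D z t) {l u : V} (hl : l ∈ D) (hu : u ∈ D) {x : Ω} (hx : x ∈ K) :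
    t l u (t l u x) = x :=
  S.ext _ (S.mem _ hl _ hu _ (S.mem _ hl _ hu _ hx)) _ hx fun k hk => by
    rw [S.val _ hl _ hu _ (S.mem _ hl _ hu _ hx) _ hk, S.val _ hl _ hu _ hx _ (swap_mem hl hu hk),
      Equiv.swap_apply_self]

lemma Slice.sum_t (S : Slice K D z t) {l u : V} (hl : l ∈ D) (hu : u ∈ D) (F : Ω → ℝ) :
    ∑ x ∈ K, F (t l u x) = ∑ x ∈ K, F x :=
  Finset.sum_bij' (fun x _ => t l u x) (fun x _ => t l u x) (fun _ hx => S.mem _ hl _ hu _ hx)
    (fun _ hx => S.mem _ hl _ hu _ hx) (fun _ hx => S.invol hl hu hx)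
    (fun _ hx => S.invol hl hu hx) (fun _ _ => rfl)

lemma Slice.conn (S : Slice K D z t) {α : Type*} (g : Ω → α)
    (h : ∀ x ∈ K, ∀ l ∈ D, ∀ u ∈ D, g (t l u x) = g x) {x y : Ω} (hx : x ∈ K) (hy : y ∈ K) :
    g x = g y := by
  obtain ⟨n, hn⟩ : ∃ n, (D.filter fun k => z x k ≠ z y k).card = n := ⟨_, rfl⟩
  induction n using Nat.strong_induction_on generalizing x with
  | _ n ih =>
  by_cases he : ∀ k ∈ D, z x k = z y k
  · rw [S.ext _ hx _ hy he]
  have : ∃ l ∈ D, ∃ u ∈ D, z x l = true ∧ z y l = false ∧ z x u = false ∧ z y u = true := by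
    push Not at he
    obtain ⟨k, hk, hne⟩ := he
    cases h1 : z x k
    · have h2 : z y k = true := by revert hne; rw [h1]; cases z y k <;> simp
      obtain ⟨u, hu, a, b⟩ := exists_up (S.cnt _ hy _ hx).le hk h2 h1
      exact ⟨u, hu, k, hk, b, a, h1, h2⟩
    · have h2 : z y k = false := by revert hne; rw [h1]; cases z y k <;> simp
      obtain ⟨u, hu, a, b⟩ := exists_up (S.cnt _ hx _ hy).le hk h1 h2
      exact ⟨k, hk, u, hu, h1, h2, a, b⟩
  obtain ⟨l, hl, u, hu, a1, a2, a3, a4⟩ := this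
  rw [← h x hx l hl u hu]
  refine ih _ ?_ (S.mem _ hl _ hu _ hx) rfl
  rw [← hn]
  refine Finset.card_lt_card ⟨fun k hk => ?_, fun hc => ?_⟩
  · rw [Finset.mem_filter] at hk ⊢
    refine ⟨hk.1, ?_⟩
    have h2 := hk.2
    rw [S.val _ hl _ hu _ hx _ hk.1, Equiv.swap_apply_def] at h2
    split_ifs at h2 with e1 e2
    · rw [e1, a1, a2]; simp
    · rw [e2, a3, a4]; simp
    · exact h2
  · have : l ∈ D.filter fun k => z x k ≠ z y k := by simp [hl, a1, a2]
    have := (Finset.mem_filter.1 (hc this)).2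
    rw [S.val _ hl _ hu _ hx _ hl, Equiv.swap_apply_left, a3, a2] at this
    exact this rfl

lemma Slice.eig (S : Slice K D z t) (v : Ω → ℝ) (lam : ℝ) (hlam : lam < 2)
    (h : ∀ x ∈ K, ∑ k ∈ D, ∑ l ∈ D, (v x - v (t k l x)) = lam * v x) {x y : Ω} (hx : x ∈ K)
    (hy : y ∈ K) : v x = v y := by
  refine S.conn v (fun x hx l hl u hu => ?_) hx hy
  obtain ⟨⟨x0, a, b⟩, hm, hmax⟩ := Finset.exists_max_image (K ×ˢ D ×ˢ D)
    (fun q => v q.1 - v (t q.2.1 q.2.2 q.1)) ⟨(x, l, u), by simp [hx, hl, hu]⟩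
  simp only [Finset.mem_product] at hm
  obtain ⟨hx0, ha, hb⟩ := hm
  have hmax' : ∀ x ∈ K, ∀ l ∈ D, ∀ u ∈ D, v x - v (t l u x) ≤ v x0 - v (t a b x0) :=
    fun x hx l hl u hu => hmax (x, l, u) (by simp [hx, hl, hu])
  obtain ⟨L, hL⟩ : ∃ L, L = v x0 - v (t a b x0) := ⟨_, rfl⟩
  have hL0 : L ≤ 0 := by
    have e1 := h x0 hx0
    have e2 := h _ (S.mem _ ha _ hb _ hx0)
    have conj : ∀ k ∈ D, ∀ l ∈ D, t (Equiv.swap a b k) (Equiv.swap a b l) (t a b x0) =
        t a b (t k l x0) := by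
      intro k hk l hl
      have hk' := swap_mem ha hb hk
      have hl' := swap_mem ha hb hl
      have m1 := S.mem _ ha _ hb _ hx0
      have m2 := S.mem _ hk _ hl _ hx0
      refine S.ext _ (S.mem _ hk' _ hl' _ m1) _ (S.mem _ ha _ hb _ m2) fun c hc => ?_
      rw [S.val _ hk' _ hl' _ m1 _ hc, S.val _ ha _ hb _ hx0 _ (swap_mem hk' hl' hc),
        S.val _ ha _ hb _ m2 _ hc, S.val _ hk _ hl _ hx0 _ (swap_mem ha hb hc),
        Equiv.swap_apply_apply]
      simp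
    have re : ∀ F : V → ℝ, ∑ k ∈ D, F (Equiv.swap a b k) = ∑ k ∈ D, F k := fun F =>
      Finset.sum_bij' (fun k _ => Equiv.swap a b k) (fun k _ => Equiv.swap a b k)
        (fun _ hk => swap_mem ha hb hk) (fun _ hk => swap_mem ha hb hk) (fun _ _ => by simp)
        (fun _ _ => by simp) (fun _ _ => rfl)
    have e3 : ∑ k ∈ D, ∑ l ∈ D, (v (t a b x0) - v (t a b (t k l x0))) = lam * v (t a b x0) := by
      rw [← e2, ← re (fun k => ∑ l ∈ D, (v (t a b x0) - v (t k l (t a b x0))))]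
      refine Finset.sum_congr rfl fun k hk => ?_
      rw [← re (fun l => v (t a b x0) - v (t (Equiv.swap a b k) l (t a b x0)))]
      exact Finset.sum_congr rfl fun l hl => by rw [conj k hk l hl]
    have e4 : ∑ k ∈ D, ∑ l ∈ D, (L - (v (t k l x0) - v (t a b (t k l x0)))) = lam * L := by
      rw [hL, mul_sub, ← e1, ← e3, ← Finset.sum_sub_distrib]
      refine Finset.sum_congr rfl fun k hk => ?_
      rw [← Finset.sum_sub_distrib]
      exact Finset.sum_congr rfl fun l hl => by ring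
    have nn : ∀ k ∈ D, ∀ l ∈ D, 0 ≤ L - (v (t k l x0) - v (t a b (t k l x0))) :=
      fun k hk l hl => by
        have := hmax' _ (S.mem _ hk _ hl _ hx0) a ha b hb
        linarith
    have e5 : L - (v (t a b x0) - v (t a b (t a b x0))) ≤ lam * L := by
      rw [← e4]
      refine le_trans ?_ (Finset.single_le_sum
        (f := fun k => ∑ l ∈ D, (L - (v (t k l x0) - v (t a b (t k l x0)))))
        (fun k hk => Finset.sum_nonneg (nn k hk)) ha)
      exact Finset.single_le_sum (f := fun l => L - (v (t a l x0) - v (t a b (t a l x0))))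
        (nn a ha) hb
    rw [S.invol ha hb hx0] at e5
    by_contra hc
    nlinarith
  have h1 := hmax' x hx l hl u hu
  have h2 := hmax' _ (S.mem _ hl _ hu _ hx) l hl u hu
  rw [S.invol hl hu hx] at h2
  linarith

lemma bl_alg (D : Finset V) (y E : V → V → ℝ) (W : ℝ) (hW : 0 ≤ W) (hm : 2 ≤ D.card)
    (hs : ∀ k l, y k l = y l k) (hd : ∀ k, y k k = 0) (h0 : ∑ k ∈ D, ∑ l ∈ D, y k l = 0)
    (hE : ∀ l u, 0 ≤ E l u)
    (h : ∀ k ∈ D, ∀ l ∈ D, ∀ u ∈ D, k ≠ l → k ≠ u → l ≠ u → (y k l - y k u) ^ 2 ≤ W * E l u) :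
    ∑ k ∈ D, ∑ l ∈ D, y k l ^ 2 ≤ W * ∑ l ∈ D, ∑ u ∈ D, E l u := by
  obtain ⟨m, hmm⟩ : ∃ m : ℝ, m = D.card := ⟨_, rfl⟩
  have hm2 : 2 ≤ m := by rw [hmm]; exact_mod_cast hm
  obtain ⟨R, hR⟩ : ∃ R : V → ℝ, R = fun k => ∑ l ∈ D, y k l := ⟨_, rfl⟩
  have hR' : ∀ k, ∑ l ∈ D, y k l = R k := fun k => by rw [hR]
  have hR'' : ∀ k, ∑ l ∈ D, y l k = R k := fun k => by simp_rw [hs _ k]; exact hR' k
  simp only [hR'] at h0
  obtain ⟨Y, hY⟩ : ∃ Y, Y = ∑ k ∈ D, ∑ l ∈ D, y k l ^ 2 := ⟨_, rfl⟩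
  obtain ⟨X, hX⟩ : ∃ X, X = ∑ k ∈ D, R k ^ 2 := ⟨_, rfl⟩
  obtain ⟨EE, hEE⟩ : ∃ EE, EE = ∑ l ∈ D, ∑ u ∈ D, E l u := ⟨_, rfl⟩
  have hEE0 : 0 ≤ EE := hEE ▸ Finset.sum_nonneg fun _ _ => Finset.sum_nonneg fun _ _ => hE _ _
  have hY0 : 0 ≤ Y := hY ▸ Finset.sum_nonneg fun _ _ => Finset.sum_nonneg fun _ _ => sq_nonneg _
  have a1 : ∑ k ∈ D, ∑ l ∈ D, ((m - 1) * y k l - R k - R l) ^ 2 =
      (m - 1) ^ 2 * Y - 4 * (m - 1) * X + 2 * m * X := by
    have : ∀ k l, ((m - 1) * y k l - R k - R l) ^ 2 = (m - 1) ^ 2 * y k l ^ 2 -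
      2 * (m - 1) * (R k * y k l) - 2 * (m - 1) * (R l * y k l) + R k ^ 2 + R l ^ 2 +
        2 * (R k * R l) := fun k l => by ring
    simp only [this, Finset.sum_add_distrib, Finset.sum_sub_distrib, ← Finset.mul_sum,
      Finset.sum_const, nsmul_eq_mul, ← hmm, hR', h0, ← hY, ← hX, mul_zero]
    rw [Finset.sum_comm (f := fun k l => R l * y k l)]
    simp only [← Finset.mul_sum, hR'', ← sq, ← hX]
    ring
  have a2 : 4 * X ≤ ∑ k ∈ D, ∑ l ∈ D, ((m - 1) * y k l - R k - R l) ^ 2 := by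
    rw [hX, Finset.mul_sum]
    refine Finset.sum_le_sum fun k hk => le_trans (le_of_eq ?_) (Finset.single_le_sum
      (f := fun l => ((m - 1) * y k l - R k - R l) ^ 2) (fun _ _ => sq_nonneg _) hk)
    simp only [hd]; ring
  have a3 : ∑ k ∈ D, ∑ l ∈ D, ∑ u ∈ D, (y k l - y k u) ^ 2 = 2 * m * Y - 2 * X := by
    have : ∀ k l u, (y k l - y k u) ^ 2 = y k l ^ 2 + y k u ^ 2 - 2 * (y k l * y k u) :=
      fun k l u => by ring
    simp only [this, Finset.sum_add_distrib, Finset.sum_sub_distrib, ← Finset.mul_sum,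
      Finset.sum_const, nsmul_eq_mul, ← hmm, hR', ← Finset.sum_mul, ← hY, ← sq, ← hX]
    ring
  have a4 : ∑ k ∈ D, ∑ l ∈ D, ∑ u ∈ D, (y k l - y k u) ^ 2 ≤ (m - 1) * (W * EE) + 2 * Y := by
    have : ∀ k ∈ D, ∀ l ∈ D, ∀ u ∈ D, (y k l - y k u) ^ 2 ≤ W * E l u - (if k = l then W * E l u else 0)
        + (if k = l then y k u ^ 2 else 0) + (if k = u then y k l ^ 2 else 0) := by
      intro k hk l hl u hu
      have := mul_nonneg hW (hE l u)
      by_cases e1 : k = l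
      · subst e1
        by_cases e2 : k = u
        · subst e2; simp [hd]
        · simp [hd, e2]
      · by_cases e2 : k = u
        · subst e2; simp [hd, e1, this]
        · by_cases e3 : l = u
          · subst e3; simp [e1, this]
          · simpa [e1, e2] using h k hk l hl u hu e1 e2 e3
    refine (Finset.sum_le_sum fun k hk => Finset.sum_le_sum fun l hl =>
      Finset.sum_le_sum fun u hu => this k hk l hl u hu).trans_eq ?_
    have b1 : ∑ k ∈ D, ∑ l ∈ D, ∑ u ∈ D, (if k = l then W * E l u else 0) = W * EE := by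
      rw [hEE, Finset.mul_sum]
      refine Finset.sum_congr rfl fun k hk => ?_
      rw [Finset.sum_comm, Finset.mul_sum]
      exact Finset.sum_congr rfl fun u _ => by simp [hk]
    have b2 : ∑ k ∈ D, ∑ l ∈ D, ∑ u ∈ D, (if k = l then y k u ^ 2 else 0) = Y := by
      rw [hY]
      refine Finset.sum_congr rfl fun k hk => ?_
      rw [Finset.sum_comm]
      exact Finset.sum_congr rfl fun u _ => by simp [hk]
    have b3 : ∑ k ∈ D, ∑ l ∈ D, ∑ u ∈ D, (if k = u then y k l ^ 2 else 0) = Y := by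
      rw [hY]
      exact Finset.sum_congr rfl fun k hk => Finset.sum_congr rfl fun u _ => by simp [hk]
    simp only [Finset.sum_add_distrib, Finset.sum_sub_distrib, b1, b2, b3]
    simp only [← Finset.mul_sum, ← hEE, Finset.sum_const, nsmul_eq_mul, ← hmm]
    ring
  rw [← hY, ← hEE]
  have c1 : 2 * m * X ≤ (m - 1) ^ 2 * Y := by linarith
  have c2 : 2 * X ≤ (m - 1) * Y := by
    by_contra hc
    push Not at hc
    nlinarith
  have c3 : (m - 1) * Y ≤ (m - 1) * (W * EE) := by linarith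
  exact le_of_mul_le_mul_left c3 (by linarith)

lemma Slice.bl (S : Slice K D z t) (g : Ω → ℝ) (hg : ∑ x ∈ K, g x = 0) :
    ∑ k ∈ D, ∑ l ∈ D, (∑ x ∈ K, if z x k ≠ z x l then g x else 0) ^ 2 /
        (∑ x ∈ K, if z x k ≠ z x l then (1 : ℝ) else 0) ≤
      ∑ l ∈ D, ∑ u ∈ D, ∑ x ∈ K, ((g x - g (t l u x)) / 2) ^ 2 := by
  obtain ⟨y, hy⟩ : ∃ y : V → V → ℝ, y = fun k l => ∑ x ∈ K, if z x k ≠ z x l then g x else 0 :=
    ⟨_, rfl⟩
  obtain ⟨W, hW⟩ : ∃ W : V → V → ℝ, W = fun k l => ∑ x ∈ K, if z x k ≠ z x l then 1 else 0 :=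
    ⟨_, rfl⟩
  obtain ⟨E, hE⟩ : ∃ E : V → V → ℝ, E = fun l u => ∑ x ∈ K, ((g x - g (t l u x)) / 2) ^ 2 :=
    ⟨_, rfl⟩
  have hy' : ∀ k l, (∑ x ∈ K, if z x k ≠ z x l then g x else 0) = y k l := fun _ _ => by rw [hy]
  have hW' : ∀ k l, (∑ x ∈ K, if z x k ≠ z x l then (1 : ℝ) else 0) = W k l :=
    fun _ _ => by rw [hW]
  have hE' : ∀ l u, ∑ x ∈ K, ((g x - g (t l u x)) / 2) ^ 2 = E l u := fun _ _ => by rw [hE]
  simp only [hy', hW', hE']
  have hE0 : ∀ l u, 0 ≤ E l u := fun l u => hE' l u ▸ Finset.sum_nonneg fun _ _ => sq_nonneg _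
  have hEE0 : 0 ≤ ∑ l ∈ D, ∑ u ∈ D, E l u :=
    Finset.sum_nonneg fun _ _ => Finset.sum_nonneg fun _ _ => hE0 _ _
  have hW0 : ∀ l u, 0 ≤ W l u := fun l u => hW' l u ▸ Finset.sum_nonneg fun _ _ => by positivity
  have hd : ∀ k, y k k = 0 := fun k => by simp [← hy']
  have hs : ∀ k l, y k l = y l k := fun k l => by simp only [← hy', ne_comm]
  have hWs : ∀ k l, W k l = W l k := fun k l => by simp only [← hW', ne_comm]
  have hW1 : ∀ k ∈ D, ∀ l ∈ D, ∀ u ∈ D, k ≠ l → k ≠ u → W k l = W k u := by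
    intro k hk l hl u hu h1 h2
    rw [← hW', ← hW', ← S.sum_t hl hu]
    refine Finset.sum_congr rfl fun x hx => ?_
    rw [S.val _ hl _ hu _ hx _ hk, S.val _ hl _ hu _ hx _ hl, Equiv.swap_apply_left,
      Equiv.swap_apply_of_ne_of_ne h1 h2]
  by_cases hm : 2 ≤ D.card
  swap
  · refine le_trans (le_of_eq (Finset.sum_eq_zero fun k hk => Finset.sum_eq_zero fun l hl => ?_))
      hEE0
    have : k = l := Finset.card_le_one.1 (by omega) k hk l hl
    simp [this, hd]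
  obtain ⟨a, ha, b, hb, hab⟩ := Finset.one_lt_card.1 hm
  have hW2 : ∀ k ∈ D, ∀ l ∈ D, k ≠ l → W k l = W a b := by
    intro k hk l hl h
    by_cases e : l = a
    · rw [hWs, e, hW1 a ha k hk b hb (e ▸ h.symm) hab]
    · rw [hWs, hW1 l hl k hk a ha h.symm e, hWs, hW1 a ha l hl b hb (Ne.symm e) hab]
  have h0 : ∑ k ∈ D, ∑ l ∈ D, y k l = 0 := by
    rcases K.eq_empty_or_nonempty with rfl | ⟨x0, hx0⟩
    · simp [← hy']
    have : ∀ x k l, (if z x k ≠ z x l then g x else 0) =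
        g x * ((io (z x k) : ℝ) + io (z x l) - 2 * (io (z x k) * io (z x l))) := by
      intro x k l
      cases z x k <;> cases z x l <;> norm_num
    simp only [← hy', this]
    have e : ∀ x ∈ K, ∑ k ∈ D, (io (z x k) : ℝ) = ∑ k ∈ D, (io (z x0 k) : ℝ) := fun x hx => by
      exact_mod_cast S.cnt x hx x0 hx0
    calc _ = ∑ x ∈ K, ∑ k ∈ D, ∑ l ∈ D,
          g x * ((io (z x k) : ℝ) + io (z x l) - 2 * (io (z x k) * io (z x l))) := by
          rw [Finset.sum_comm (s := K)]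
          exact Finset.sum_congr rfl fun _ _ => Finset.sum_comm
      _ = ∑ x ∈ K, g x * (2 * D.card * (∑ k ∈ D, (io (z x0 k) : ℝ)) -
            2 * (∑ k ∈ D, (io (z x0 k) : ℝ)) ^ 2) := by
          refine Finset.sum_congr rfl fun x hx => ?_
          simp only [← Finset.mul_sum, Finset.sum_add_distrib, Finset.sum_sub_distrib,
            Finset.sum_const, nsmul_eq_mul, ← Finset.sum_mul, e x hx]
          ring
      _ = 0 := by rw [← Finset.sum_mul, hg, zero_mul]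
  have key := bl_alg D y E (W a b) (hW0 _ _) hm hs hd h0 hE0 (by
    intro k hk l hl u hu h1 h2 h3
    obtain ⟨φ, hφ⟩ : ∃ φ : Ω → ℝ, φ = fun x => (if z x k ≠ z x l then (1 : ℝ) else 0) -
      (if z x k ≠ z x u then (1 : ℝ) else 0) := ⟨_, rfl⟩
    have e1 : y k l - y k u = ∑ x ∈ K, φ x * g x := by
      rw [← hy', ← hy', ← Finset.sum_sub_distrib, hφ]
      exact Finset.sum_congr rfl fun x _ => by beta_reduce; split_ifs <;> simp
    have e2 : ∑ x ∈ K, φ x * g (t l u x) = - ∑ x ∈ K, φ x * g x := by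
      rw [← S.sum_t hl hu, ← Finset.sum_neg_distrib]
      refine Finset.sum_congr rfl fun x hx => ?_
      rw [S.invol hl hu hx, hφ]
      simp only
      rw [S.val _ hl _ hu _ hx _ hk, S.val _ hl _ hu _ hx _ hl, S.val _ hl _ hu _ hx _ hu,
        Equiv.swap_apply_left, Equiv.swap_apply_right, Equiv.swap_apply_of_ne_of_ne h1 h2]
      ring
    have e3 : y k l - y k u = ∑ x ∈ K, φ x * ((g x - g (t l u x)) / 2) := by
      have : ∀ x, φ x * ((g x - g (t l u x)) / 2) = (φ x * g x - φ x * g (t l u x)) / 2 :=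
        fun x => by ring
      simp only [this, ← Finset.sum_div, Finset.sum_sub_distrib, e2, e1]
      ring
    have e4 : ∑ x ∈ K, φ x ^ 2 = W a b := by
      rw [← hW2 l hl u hu h3, ← hW', hφ]
      refine Finset.sum_congr rfl fun x _ => ?_
      beta_reduce
      cases z x k <;> cases z x l <;> cases z x u <;> simp
    rw [e3, ← e4, ← hE']
    exact Finset.sum_mul_sq_le_sq_mul_sq _ _ _)
  have e5 : ∑ k ∈ D, ∑ l ∈ D, y k l ^ 2 / W k l = (∑ k ∈ D, ∑ l ∈ D, y k l ^ 2) / W a b := by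
    rw [Finset.sum_div]
    refine Finset.sum_congr rfl fun k hk => ?_
    rw [Finset.sum_div]
    refine Finset.sum_congr rfl fun l hl => ?_
    by_cases e : k = l
    · simp [e, hd]
    · rw [hW2 k hk l hl e]
  rw [e5]
  rcases (hW0 a b).eq_or_lt with h | h
  · rw [← h, div_zero]; exact hEE0
  · rw [div_le_iff₀ h, mul_comm]; exact key

open Classical in
/-- weight received by a point in a relation coupling -/
noncomputable def wt (K1 K2 : Finset Ω) (R : Ω → Ω → Prop) (Y : Ω) : ℝ :=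
  ∑ X ∈ K1, if R X Y then 1 / ((K2.filter (R X)).card : ℝ) else 0

lemma wt_inv {K1 K2 : Finset Ω} {R : Ω → Ω → Prop} {τ : Ω → Ω}
    (m1 : ∀ x ∈ K1, τ x ∈ K1) (m2 : ∀ x ∈ K2, τ x ∈ K2) (i1 : ∀ x ∈ K1, τ (τ x) = x)
    (i2 : ∀ x ∈ K2, τ (τ x) = x) (hR : ∀ x ∈ K1, ∀ y ∈ K2, R x y → R (τ x) (τ y)) {Y : Ω}
    (hY : Y ∈ K2) : wt K1 K2 R (τ Y) = wt K1 K2 R Y := by
  classical
  have hR' : ∀ x ∈ K1, ∀ y ∈ K2, R (τ x) (τ y) ↔ R x y := fun x hx y hy =>
    ⟨fun h => by simpa [i1 x hx, i2 y hy] using hR _ (m1 x hx) _ (m2 y hy) h, hR x hx y hy⟩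
  unfold wt
  symm
  refine Finset.sum_bij' (fun x _ => τ x) (fun x _ => τ x) m1 m1 i1 i1 fun x hx => ?_
  have : (K2.filter (R x)).card = (K2.filter (R (τ x))).card := by
    refine Finset.card_bij' (fun y _ => τ y) (fun y _ => τ y) (fun y hy => ?_) (fun y hy => ?_)
      (fun y hy => i2 y (Finset.mem_filter.1 hy).1) (fun y hy => i2 y (Finset.mem_filter.1 hy).1)
    · rw [Finset.mem_filter] at hy ⊢
      exact ⟨m2 y hy.1, hR x hx y hy.1 hy.2⟩
    · rw [Finset.mem_filter] at hy ⊢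
      refine ⟨m2 y hy.1, ?_⟩
      rw [← hR' x hx _ (m2 y hy.1), i2 y hy.1]; exact hy.2
  simp only [hR' x hx Y hY, this]

lemma coupling {K1 K2 : Finset Ω} {R : Ω → Ω → Prop} (v w : Ω → ℝ) (L : ℝ) (hne : K1.Nonempty)
    (hex : ∀ X ∈ K1, ∃ Y ∈ K2, R X Y) (hc : ∀ Y ∈ K2, ∀ Y' ∈ K2, wt K1 K2 R Y = wt K1 K2 R Y')
    (hL : ∀ X ∈ K1, ∀ Y ∈ K2, R X Y → v X ≤ w Y + L) :
    (∑ X ∈ K1, v X) / K1.card ≤ (∑ Y ∈ K2, w Y) / K2.card + L := by
  classical
  obtain ⟨X0, hX0⟩ := hne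
  obtain ⟨Y0, hY0, -⟩ := hex X0 hX0
  have hn : ∀ X ∈ K1, (0 : ℝ) < (K2.filter (R X)).card := fun X hX => by
    obtain ⟨Y, hY, h⟩ := hex X hX
    exact_mod_cast Finset.card_pos.2 ⟨Y, Finset.mem_filter.2 ⟨hY, h⟩⟩
  have h1 : ∀ X ∈ K1, ∑ Y ∈ K2, (if R X Y then 1 / ((K2.filter (R X)).card : ℝ) else 0) = 1 := by
    intro X hX
    rw [← Finset.sum_filter, Finset.sum_const, nsmul_eq_mul]
    field_simp [(hn X hX).ne']
  have h2 : (K2.card : ℝ) * wt K1 K2 R Y0 = K1.card := by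
    rw [← nsmul_eq_mul, ← Finset.sum_const, Finset.sum_congr rfl fun Y hY => hc Y0 hY0 Y hY]
    unfold wt
    rw [Finset.sum_comm, Finset.sum_congr rfl h1]
    simp
  have h3 : ∑ X ∈ K1, v X ≤ wt K1 K2 R Y0 * ∑ Y ∈ K2, w Y + K1.card * L := by
    calc ∑ X ∈ K1, v X = ∑ X ∈ K1, ∑ Y ∈ K2,
          (if R X Y then 1 / ((K2.filter (R X)).card : ℝ) else 0) * v X := by
          refine Finset.sum_congr rfl fun X hX => ?_
          rw [← Finset.sum_mul, h1 X hX, one_mul]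
      _ ≤ ∑ X ∈ K1, ∑ Y ∈ K2,
          (if R X Y then 1 / ((K2.filter (R X)).card : ℝ) else 0) * (w Y + L) := by
          refine Finset.sum_le_sum fun X hX => Finset.sum_le_sum fun Y hY => ?_
          split_ifs with h
          · exact mul_le_mul_of_nonneg_left (hL X hX Y hY h) (by positivity)
          · simp
      _ = _ := by
          simp only [mul_add, Finset.sum_add_distrib]
          congr 1
          · rw [Finset.sum_comm, Finset.mul_sum]
            refine Finset.sum_congr rfl fun Y hY => ?_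
            rw [← Finset.sum_mul, hc Y0 hY0 Y hY]; rfl
          · rw [Finset.sum_congr rfl fun X hX => by rw [← Finset.sum_mul, h1 X hX, one_mul]]
            simp
  have p1 : (0 : ℝ) < K1.card := by exact_mod_cast Finset.card_pos.2 ⟨X0, hX0⟩
  have p2 : (0 : ℝ) < K2.card := by exact_mod_cast Finset.card_pos.2 ⟨Y0, hY0⟩
  rw [div_le_iff₀ p1]
  refine h3.trans_eq ?_
  have : wt K1 K2 R Y0 = K1.card / K2.card := by rw [← h2]; field_simp
  rw [this]; field_simp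

end Vale.Agent.P335
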