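import Vale.Agent.P335.Avg

namespace Vale.Agent.P335

open Finset

variable {Ω : Type*} [Fintype Ω]

lemma spec (T : (Ω → ℝ) →ₗ[ℝ] (Ω → ℝ)) (hT : ∀ f g, ip (T f) g = ip f (T g)) :
    ∃ (N : ℕ) (b : Fin N → Ω → ℝ) (lam : Fin N → ℝ), (∀ i, T (b i) = lam i • b i) ∧
      (∀ i, b i ≠ 0) ∧ ∀ f g, ip f g = ∑ i, ip f (b i) * ip (b i) g := by
  classical
  let E := EuclideanSpace ℝ Ω
  let e : E ≃ₗ[ℝ] (Ω → ℝ) := WithLp.linearEquiv 2 ℝ (Ω → ℝ)
  have hin : ∀ x y : E, inner ℝ x y = ip (e x) (e y) := by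
    intro x y
    simp only [ip, e]
    refine Finset.sum_congr rfl fun i _ => ?_
    simp only [conj_trivial, RCLike.inner_apply, mul_comm]
    rfl
  let T' : E →ₗ[ℝ] E := e.symm.toLinearMap ∘ₗ T ∘ₗ e.toLinearMap
  have hT' : T'.IsSymmetric := by
    intro x y
    rw [hin, hin]
    simp [T', hT]
  refine ⟨Module.finrank ℝ E, fun i => e (hT'.eigenvectorBasis rfl i),
    fun i => hT'.eigenvalues rfl i, fun i => ?_, fun i => ?_, fun f g => ?_⟩
  · have := congrArg e (hT'.apply_eigenvectorBasis rfl i)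
    rw [map_smul] at this
    simp only [T', LinearMap.comp_apply, LinearEquiv.coe_coe, LinearEquiv.apply_symm_apply] at this
    exact this
  · intro h
    have h2 : hT'.eigenvectorBasis rfl i = 0 := e.injective (by simpa using h)
    exact (hT'.hasEigenvector_eigenvectorBasis rfl i).2 h2
  · have := (hT'.eigenvectorBasis rfl).sum_inner_mul_inner (e.symm f) (e.symm g)
    simp only [hin, LinearEquiv.apply_symm_apply] at this
    exact this.symm

lemma L1 (T : (Ω → ℝ) →ₗ[ℝ] (Ω → ℝ)) (hT : ∀ f g, ip (T f) g = ip f (T g)) (c : ℝ) (f : Ω → ℝ)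
    (h : ∀ (v : Ω → ℝ) (lam : ℝ), v ≠ 0 → T v = lam • v → c ≤ lam ∨ ip v f = 0) :
    c * ip f f ≤ ip f (T f) := by
  obtain ⟨N, b, lam, h1, h2, h3⟩ := spec T hT
  rw [h3 f f, h3 f (T f), Finset.mul_sum]
  refine Finset.sum_le_sum fun i _ => ?_
  rw [← hT, h1, ip_smul_left, ip_comm f]
  rcases h _ _ (h2 i) (h1 i) with h | h
  · nlinarith [mul_self_nonneg (ip (b i) f)]
  · simp [h]

lemma L2 (T : (Ω → ℝ) →ₗ[ℝ] (Ω → ℝ)) (hT : ∀ f g, ip (T f) g = ip f (T g)) (f : Ω → ℝ)
    (h : ∀ (v : Ω → ℝ) (lam : ℝ), v ≠ 0 → T v = lam • v → 1 ≤ lam ∨ lam = 0) :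
    ip f (T f) ≤ ip (T f) (T f) := by
  obtain ⟨N, b, lam, h1, h2, h3⟩ := spec T hT
  rw [h3 f (T f), h3 (T f) (T f)]
  refine Finset.sum_le_sum fun i _ => ?_
  rw [ip_comm (T f), ← hT, h1, ip_smul_left, ip_comm f]
  rcases h _ _ (h2 i) (h1 i) with h | h
  · have : 0 ≤ (lam i * (lam i - 1)) * (ip (b i) f * ip (b i) f) :=
      mul_nonneg (mul_nonneg (by linarith) (by linarith)) (mul_self_nonneg _)
    nlinarith
  · simp [h]

lemma half_pow_bound (M : ℕ) (hM : 1 ≤ M) : (1 - 1 / (M : ℝ)) ^ M ≤ 1 / 2 := by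
  have hM' : (1 : ℝ) ≤ M := by exact_mod_cast hM
  have h0 : 0 ≤ 1 - 1 / (M : ℝ) := by
    rw [sub_nonneg, div_le_one (by linarith)]; exact hM'
  have h1 : (1 : ℝ) + M * (1 / M) ≤ (1 + 1 / M) ^ M := one_add_mul_le_pow (by
    have : (0 : ℝ) ≤ 1 / M := by positivity
    linarith) M
  have h2 : (M : ℝ) * (1 / M) = 1 := by field_simp
  have h3 : (1 - 1 / (M : ℝ)) ^ M * (1 + 1 / M) ^ M ≤ 1 := by
    rw [← mul_pow]
    refine pow_le_one₀ (by positivity) ?_
    nlinarith [mul_self_nonneg (1 / (M : ℝ))]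
  have h4 := pow_nonneg h0 M
  nlinarith

/-- mixing from a Poincare inequality -/
theorem mixing [DecidableEq Ω] [Nonempty Ω] (K A : Matrix Ω Ω ℝ) (hs : ∀ x y, K x y = K y x)
    (h0 : ∀ x y, 0 ≤ K x y) (h1 : ∀ x, ∑ y, K x y = 1)
    (hA : ∀ x y, A x y = (1 / 2) * (if x = y then 1 else 0) + (1 / 2) * K x y)
    (M B : ℕ) (hM : 1 ≤ M) (hB : (Fintype.card Ω : ℝ) ≤ 2 ^ B)
    (gap : ∀ f : Ω → ℝ, ∑ x, f x = 0 → ip f f ≤ M * ∑ x, ∑ y, K x y * (f x - f y) ^ 2)
    (x : Ω) :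
    (1 / 2) * ∑ y, |(A ^ (4 * M * (B + 2))) x y - 1 / (Fintype.card Ω : ℝ)| ≤ 1 / 4 := by
  have hN : (0 : ℝ) < Fintype.card Ω := by exact_mod_cast Fintype.card_pos
  have hM' : (1 : ℝ) ≤ M := by exact_mod_cast hM
  have h1' : ∀ y, ∑ x, K x y = 1 := fun y => by simp_rw [hs _ y]; exact h1 y
  -- one step
  have step : ∀ f g : Ω → ℝ, ∑ x, f x = 0 → (∀ y, g y = ∑ z, f z * A z y) →
      ∑ x, g x = 0 ∧ ip g g ≤ (1 - 1 / ((4 * M : ℕ) : ℝ)) * ip f f := by
    intro f g hf hg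
    obtain ⟨k, hk⟩ : ∃ k : Ω → ℝ, k = fun y => ∑ z, f z * K z y := ⟨_, rfl⟩
    have hg' : ∀ y, g y = (f y + k y) / 2 := by
      intro y
      rw [hg, hk]
      simp only [hA, mul_add, Finset.sum_add_distrib]
      simp only [mul_ite, mul_one, mul_zero, Finset.sum_ite_eq', mem_univ, if_true]
      rw [add_div, Finset.sum_div]
      congr 1
      · ring
      · exact Finset.sum_congr rfl fun _ _ => by ring
    have hk0 : ∑ y, k y = 0 := by
      rw [hk, Finset.sum_comm]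
      simp_rw [← Finset.mul_sum, h1, mul_one, hf]
    have hkk : ip k k ≤ ip f f := by
      have : ∀ y, k y * k y ≤ ∑ z, f z * f z * K z y := by
        intro y
        have e : 0 ≤ ∑ z, K z y * (f z - k y) ^ 2 :=
          Finset.sum_nonneg fun z _ => mul_nonneg (h0 _ _) (sq_nonneg _)
        have e2 : ∑ z, K z y * (f z - k y) ^ 2 =
            ∑ z, f z * f z * K z y - 2 * k y * (∑ z, f z * K z y) + k y ^ 2 * ∑ z, K z y := by
          rw [Finset.mul_sum, Finset.mul_sum, ← Finset.sum_sub_distrib, ← Finset.sum_add_distrib]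
          exact Finset.sum_congr rfl fun _ _ => by ring
        have e3 : ∑ z, f z * K z y = k y := by rw [hk]
        rw [e2, e3, h1'] at e
        nlinarith
      refine (Finset.sum_le_sum fun y _ => this y).trans_eq ?_
      rw [Finset.sum_comm]
      simp_rw [← Finset.mul_sum, h1, mul_one, ip]
    have hd : ∑ x, ∑ y, K x y * (f x - f y) ^ 2 = 2 * ip f f - 2 * ip f k := by
      have e1 : ∑ x, ∑ y, K x y * (f x - f y) ^ 2 = ∑ x, ∑ y, f x * f x * K x y +
          ∑ x, ∑ y, f y * f y * K x y - 2 * ∑ x, ∑ y, f y * (f x * K x y) := by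
        rw [Finset.mul_sum, ← Finset.sum_add_distrib, ← Finset.sum_sub_distrib]
        refine Finset.sum_congr rfl fun _ _ => ?_
        rw [Finset.mul_sum, ← Finset.sum_add_distrib, ← Finset.sum_sub_distrib]
        exact Finset.sum_congr rfl fun _ _ => by ring
      rw [e1, Finset.sum_comm (f := fun x y => f y * f y * K x y),
        Finset.sum_comm (f := fun x y => f y * (f x * K x y))]
      simp_rw [← Finset.mul_sum, h1, h1', mul_one, hk, ip]
      ring
    have hgg : ip g g = (ip f f + 2 * ip f k + ip k k) / 4 := by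
      unfold ip
      rw [Finset.mul_sum, ← Finset.sum_add_distrib, ← Finset.sum_add_distrib, Finset.sum_div]
      exact Finset.sum_congr rfl fun _ _ => by rw [hg']; ring
    refine ⟨by simp_rw [hg', ← Finset.sum_div, Finset.sum_add_distrib, hf, hk0]; simp, ?_⟩
    have hgap := gap f hf
    rw [hd] at hgap
    have : (1 / ((4 * M : ℕ) : ℝ)) * ip f f ≤ (2 * ip f f - 2 * ip f k) / 4 := by
      push_cast
      rw [div_mul_eq_mul_div, one_mul, div_le_iff₀ (by positivity)]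
      nlinarith
    nlinarith
  have hq : 0 ≤ 1 - 1 / ((4 * M : ℕ) : ℝ) := by
    push_cast
    rw [sub_nonneg, div_le_one (by linarith)]; linarith
  have hAc : ∀ y, ∑ z, A z y = 1 := by
    intro y
    simp only [hA, Finset.sum_add_distrib, ← Finset.mul_sum, h1']
    simp; norm_num
  have ind : ∀ t : ℕ, ∑ y, ((A ^ t) x y - 1 / (Fintype.card Ω : ℝ)) = 0 ∧
      ip (fun y => (A ^ t) x y - 1 / (Fintype.card Ω : ℝ))
        (fun y => (A ^ t) x y - 1 / (Fintype.card Ω : ℝ)) ≤ (1 - 1 / ((4 * M : ℕ) : ℝ)) ^ t := by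
    intro t
    induction t with
    | zero =>
      constructor
      · simp [Matrix.one_apply, Finset.sum_sub_distrib, hN.ne']
      · have : ∀ y, ((A ^ 0) x y - 1 / (Fintype.card Ω : ℝ)) * ((A ^ 0) x y - 1 / (Fintype.card Ω : ℝ))
            = (if x = y then 1 - 2 / (Fintype.card Ω : ℝ) else 0) +
              1 / (Fintype.card Ω : ℝ) ^ 2 := by
          intro y
          by_cases h : x = y
          · simp only [pow_zero, Matrix.one_apply, h, if_true]; field_simp; ring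
          · simp only [pow_zero, Matrix.one_apply, h, if_false]; field_simp; ring
        unfold ip
        simp only [this]
        simp only [Finset.sum_add_distrib, Finset.sum_ite_eq, mem_univ, if_true, pow_zero,
          Finset.sum_const, Finset.card_univ, nsmul_eq_mul]
        have e : (Fintype.card Ω : ℝ) * (1 / (Fintype.card Ω : ℝ) ^ 2) = 1 / Fintype.card Ω := by
          field_simp
        have e2 : (2 : ℝ) / Fintype.card Ω = 2 * (1 / Fintype.card Ω) := by ring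
        have : (0 : ℝ) < 1 / Fintype.card Ω := by positivity
        linarith
    | succ t ih =>
      obtain ⟨a, b⟩ := step _ (fun y => (A ^ (t + 1)) x y - 1 / (Fintype.card Ω : ℝ)) ih.1
        (fun y => by
          simp only [pow_succ, Matrix.mul_apply, sub_mul, Finset.sum_sub_distrib,
            ← Finset.mul_sum, hAc, mul_one])
      exact ⟨a, b.trans (by rw [pow_succ']; exact mul_le_mul_of_nonneg_left ih.2 hq)⟩
  obtain ⟨g, hg⟩ : ∃ g : Ω → ℝ, g = fun y =>
    (A ^ (4 * M * (B + 2))) x y - 1 / (Fintype.card Ω : ℝ) := ⟨_, rfl⟩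
  have h2 := (ind (4 * M * (B + 2))).2
  rw [← hg, pow_mul] at h2
  have h3 : ((1 - 1 / ((4 * M : ℕ) : ℝ)) ^ (4 * M)) ^ (B + 2) ≤ (1 / 2) ^ (B + 2) :=
    pow_le_pow_left₀ (pow_nonneg hq _) (half_pow_bound (4 * M) (by omega)) _
  have h4 : (∑ y, |g y|) ^ 2 ≤ Fintype.card Ω * ip g g := by
    have := sq_sum_le_card_mul_sum_sq (s := (univ : Finset Ω)) (f := fun y => |g y|)
    simpa [ip, sq] using this
  have h5 : (∑ y, |g y|) ^ 2 ≤ (1 / 2) ^ 2 := by
    refine h4.trans ?_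
    calc _ ≤ (2 : ℝ) ^ B * (1 / 2) ^ (B + 2) :=
          mul_le_mul hB (h2.trans h3) (ip_self_nonneg _) (by positivity)
      _ = _ := by rw [pow_add, ← mul_assoc, ← mul_pow]; norm_num
  have h6 : ∑ y, |g y| ≤ 1 / 2 := by
    exact (pow_le_pow_iff_left₀ (Finset.sum_nonneg fun _ _ => abs_nonneg _) (by norm_num)
      two_ne_zero).1 h5
  rw [hg] at h6
  linarith

end Vale.Agent.P335
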