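import Vale.Agent.P335.Slice

namespace Vale.Agent.P335

open Finset

lemma io_bd (b : Bool) : 0 ≤ io b ∧ io b ≤ 1 := by cases b <;> simp

lemma sum3 (f : Fin 3 → ℤ) (b : Fin 3) : ∑ r, f r = f b + f (b + 1) + f (b + 2) := by
  rw [Fin.sum_univ_three]
  fin_cases b <;> simp <;> ring

lemma sum3' (f : Fin 3 → ℝ) (b : Fin 3) : ∑ r, f r = f b + f (b + 1) + f (b + 2) := by
  rw [Fin.sum_univ_three]
  fin_cases b <;> simp <;> ring

lemma cases3 (b r : Fin 3) : r = b ∨ r = b + 1 ∨ r = b + 2 := by revert b r; decide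

lemma ne31 (b : Fin 3) : b + 1 ≠ b := by revert b; decide
lemma ne32 (b : Fin 3) : b + 2 ≠ b := by revert b; decide

lemma fext3 {p q : Fin 3 → Bool} (b : Fin 3) (h0 : io (p b) = io (q b))
    (h1 : io (p (b + 1)) = io (q (b + 1))) (h2 : io (p (b + 2)) = io (q (b + 2))) : p = q := by
  funext r
  rcases cases3 b r with rfl | rfl | rfl
  exacts [io_inj h0, io_inj h1, io_inj h2]

variable {C : Type*} [Fintype C] [DecidableEq C]

/-- three row binary matrices with given margins -/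
def Om3 (γ : C → ℤ) (ρ : Fin 3 → ℤ) :=
  {Z : C → Fin 3 → Bool // (∀ c, ∑ r, io (Z c r) = γ c) ∧ ∀ r, ∑ c, io (Z c r) = ρ r}

variable {γ : C → ℤ} {ρ : Fin 3 → ℤ}

noncomputable instance : Fintype (Om3 γ ρ) := by
  unfold Om3; exact Fintype.ofFinite _

/-- same row -/
def row (γ : C → ℤ) (ρ : Fin 3 → ℤ) (r : Fin 3) : Setoid (Om3 γ ρ) where
  r Z Y := ∀ c, Z.1 c r = Y.1 c r
  iseqv := ⟨fun _ _ => rfl, fun h c => (h c).symm, fun h h' c => (h c).trans (h' c)⟩

omit [DecidableEq C] in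
lemma colr (Z : Om3 γ ρ) (c : C) (b : Fin 3) :
    io (Z.1 c b) + io (Z.1 c (b + 1)) + io (Z.1 c (b + 2)) = γ c := by
  rw [← Z.2.1 c, sum3 _ b]

lemma sum_off (Z Y : Om3 γ ρ) (S : Finset C) (r : Fin 3) (h : ∀ c, c ∉ S → Z.1 c r = Y.1 c r) :
    ∑ c ∈ S, io (Z.1 c r) = ∑ c ∈ S, io (Y.1 c r) := by
  have h1 := Finset.sum_add_sum_compl S fun c => io (Z.1 c r)
  have h2 := Finset.sum_add_sum_compl S fun c => io (Y.1 c r)
  rw [Z.2.2] at h1
  rw [Y.2.2] at h2
  have : ∑ c ∈ Sᶜ, io (Z.1 c r) = ∑ c ∈ Sᶜ, io (Y.1 c r) :=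
    Finset.sum_congr rfl fun c hc => by rw [h c (Finset.mem_compl.1 hc)]
  omega

/-- replace some columns -/
def patch (X Y : Om3 γ ρ) (S : Finset C)
    (h : ∀ r, ∑ c ∈ S, io (X.1 c r) = ∑ c ∈ S, io (Y.1 c r)) : Om3 γ ρ :=
  ⟨fun c => if c ∈ S then Y.1 c else X.1 c, fun c => by
    beta_reduce
    split_ifs
    exacts [Y.2.1 c, X.2.1 c], fun r => by
    rw [← X.2.2 r, ← Finset.sum_add_sum_compl S, ← Finset.sum_add_sum_compl S, h r]
    congr 1
    · exact Finset.sum_congr rfl fun c hc => by simp [hc]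
    · exact Finset.sum_congr rfl fun c hc => by simp [Finset.mem_compl.1 hc]⟩

/-- swap two columns -/
def csw {u w : C} (h : γ u = γ w) (Z : Om3 γ ρ) : Om3 γ ρ :=
  ⟨fun c => Z.1 (Equiv.swap u w c), fun c => by
    rw [Z.2.1, Equiv.swap_apply_def]; split_ifs <;> simp_all, fun r => by
    rw [← Z.2.2 r]; exact Equiv.sum_comp (Equiv.swap u w) fun c => io (Z.1 c r)⟩

lemma csw_invol {u w : C} (h : γ u = γ w) : Function.Involutive (csw (ρ := ρ) h) :=
  fun Z => Subtype.ext (funext fun c => by simp [csw])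

lemma max3 {a : Fin 3 → ℝ} {μ L : ℝ} (hμ : 2 < μ) (h : ∑ r, a r = μ * L) (h1 : ∀ r, a r ≤ L)
    {r0 : Fin 3} (h0 : a r0 = 0) : L ≤ 0 := by
  rw [sum3' _ r0, h0] at h
  have := h1 (r0 + 1)
  have := h1 (r0 + 2)
  by_contra hc
  nlinarith

lemma step1 {v : Om3 γ ρ → ℝ} {μ : ℝ} (hμ : 2 < μ)
    (hv : ∀ Z, ∑ r, P (row γ ρ r) v Z = μ * v Z) {u w : C} (h : γ u = γ w) (Z : Om3 γ ρ) :
    v (csw h Z) = v Z := by
  obtain ⟨X, -, hX⟩ := Finset.exists_max_image univ (fun X => v X - v (csw h X)) ⟨Z, mem_univ _⟩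
  have eq : ∀ r, P (row γ ρ r) (v ∘ csw h) = P (row γ ρ r) v ∘ csw h := fun r =>
    P_equiv (s := row γ ρ r) (csw_invol h) (fun x y hxy c => hxy _) v
  have hL : v X - v (csw h X) ≤ 0 := by
    obtain ⟨r0, hr0⟩ : ∃ r0, X.1 u r0 = X.1 w r0 := by
      by_contra hc
      push Not at hc
      have a := colr X u 0
      have b := colr X w 0
      have hc' : ∀ r, io (X.1 u r) ≠ io (X.1 w r) := fun r e => hc r (io_inj e)
      have := hc' 0
      have := hc' (0 + 1)
      have := hc' (0 + 2)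
      have := io_bd (X.1 u 0)
      have := io_bd (X.1 u (0 + 1))
      have := io_bd (X.1 u (0 + 2))
      have := io_bd (X.1 w 0)
      have := io_bd (X.1 w (0 + 1))
      have := io_bd (X.1 w (0 + 2))
      omega
    refine max3 (a := fun r => P (row γ ρ r) (v - v ∘ csw h) X) hμ ?_
      (fun r => P_le fun y _ => hX y (mem_univ _)) (r0 := r0) ?_
    · simp only [map_sub, eq, Pi.sub_apply, Finset.sum_sub_distrib, Function.comp_apply, hv]
      ring
    · simp only [map_sub, eq, Pi.sub_apply, Function.comp_apply]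
      rw [sub_eq_zero]
      refine P_congr v fun c => ?_
      simp only [csw, Equiv.swap_apply_def]
      split_ifs <;> simp_all
  have h1 := hX Z (mem_univ _)
  have h2 := hX (csw h Z) (mem_univ _)
  simp only [csw_invol h Z] at h2
  linarith

/-- swap two columns away from row `b` -/
def rsw (b : Fin 3) (l u : C) (Z : Om3 γ ρ) : Om3 γ ρ :=
  if h : γ l - io (Z.1 l b) = γ u - io (Z.1 u b) then
    ⟨fun c r => if r = b then Z.1 c b else Z.1 (Equiv.swap l u c) r, fun c => by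
      rw [sum3 _ b]
      simp only [if_true, ne31, ne32, if_false]
      have h1 := colr Z (Equiv.swap l u c) b
      revert h1
      rw [Equiv.swap_apply_def]
      split_ifs with e1 e2
      · subst e1; omega
      · subst e2; omega
      · omega, fun r => by
      by_cases e : r = b
      · simp only [e, if_true, Z.2.2]
      · simp only [e, if_false]
        rw [← Z.2.2 r]; exact Equiv.sum_comp (Equiv.swap l u) fun c => io (Z.1 c r)⟩
  else Z

lemma rsw_val {b : Fin 3} {l u : C} {Z : Om3 γ ρ}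
    (h : γ l - io (Z.1 l b) = γ u - io (Z.1 u b)) (c : C) (r : Fin 3) :
    (rsw b l u Z).1 c r = if r = b then Z.1 c b else Z.1 (Equiv.swap l u c) r := by
  simp [rsw, h]

/-- free columns -/
def fr (b : Fin 3) (X : Om3 γ ρ) : Finset C := univ.filter fun c => γ c - io (X.1 c b) = 1

omit [DecidableEq C] in
lemma mem_fr {b : Fin 3} {X : Om3 γ ρ} {c : C} : c ∈ fr b X ↔ γ c - io (X.1 c b) = 1 := by
  simp [fr]

lemma rsw_val' {b : Fin 3} {l u : C} {X Z : Om3 γ ρ} (hZ : Z ∈ cl (row γ ρ b) X)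
    (hl : l ∈ fr b X) (hu : u ∈ fr b X) (c : C) (r : Fin 3) :
    (rsw b l u Z).1 c r = if r = b then Z.1 c b else Z.1 (Equiv.swap l u c) r := by
  refine rsw_val ?_ c r
  rw [mem_cl.1 hZ l, mem_cl.1 hZ u, mem_fr.1 hl, mem_fr.1 hu]

lemma slice3 (b : Fin 3) (X : Om3 γ ρ) :
    Slice (cl (row γ ρ b) X) (fr b X) (fun Z c => Z.1 c (b + 1)) (rsw b) := by
  have off : ∀ x ∈ cl (row γ ρ b) X, ∀ y ∈ cl (row γ ρ b) X, ∀ c, c ∉ fr b X →
      io (x.1 c (b + 1)) = io (y.1 c (b + 1)) := by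
    intro x hx y hy c hc
    rw [mem_fr] at hc
    have a := colr x c b
    have a' := colr y c b
    rw [mem_cl.1 hx c] at a
    rw [mem_cl.1 hy c] at a'
    have := io_bd (x.1 c (b + 1))
    have := io_bd (x.1 c (b + 2))
    have := io_bd (y.1 c (b + 1))
    have := io_bd (y.1 c (b + 2))
    omega
  refine ⟨fun l hl u hu x hx => mem_cl.2 fun c => ?_, fun l hl u hu x hx k _ => ?_,
    fun x hx y hy h => Subtype.ext (funext fun c => ?_), fun x hx y hy => ?_⟩
  · rw [rsw_val' hx hl hu, if_pos rfl, mem_cl.1 hx c]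
  · rw [rsw_val' hx hl hu, if_neg (ne31 b)]
  · have a := colr x c b
    have a' := colr y c b
    have e0 : io (x.1 c b) = io (y.1 c b) := by rw [mem_cl.1 hx c, mem_cl.1 hy c]
    have e1 : io (x.1 c (b + 1)) = io (y.1 c (b + 1)) := by
      by_cases hc : c ∈ fr b X
      · exact congrArg io (h c hc)
      · exact off x hx y hy c hc
    exact fext3 b e0 e1 (by omega)
  · exact sum_off x y _ _ fun c hc => io_inj (off x hx y hy c hc)

/-- differ in at most two columns -/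
def Nb (Z Y : Om3 γ ρ) : Prop := ∃ u w, ∀ c, c ≠ u → c ≠ w → Z.1 c = Y.1 c

lemma two_col {Z Y : Om3 γ ρ} {u w : C} (huw : u ≠ w) (r : Fin 3)
    (h : ∀ c, c ≠ u → c ≠ w → Z.1 c r = Y.1 c r) :
    io (Z.1 u r) + io (Z.1 w r) = io (Y.1 u r) + io (Y.1 w r) := by
  have := sum_off Z Y {u, w} r fun c hc => h c (by rintro rfl; simp at hc) (by rintro rfl; simp at hc)
  simpa [Finset.sum_pair huw] using this

omit [Fintype C] in
lemma sum_three {u w e : C} (h1 : u ≠ w) (h2 : u ≠ e) (h3 : w ≠ e) (f : C → ℤ) :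
    ∑ c ∈ ({u, w, e} : Finset C), f c = f u + f w + f e := by
  rw [Finset.sum_insert (by simp [h1, h2]), Finset.sum_pair h3, add_assoc]

lemma CL {v : Om3 γ ρ → ℝ} {L : ℝ} (h1 : ∀ u w (h : γ u = γ w) Z, v (csw h Z) = v Z)
    (hL : ∀ X X', Nb X X' → v X - v X' ≤ L) (b : Fin 3) (Z Y : Om3 γ ρ) (u w : C)
    (hb : ∀ c, c ≠ u → c ≠ w → Z.1 c b = Y.1 c b) (a1 : io (Z.1 u b) = 0) (a2 : io (Y.1 u b) = 1)
    (a3 : γ u = 1) (a4 : io (Z.1 w b) = 1) (a5 : io (Y.1 w b) = 0) (a6 : γ w = 2) :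
    |P (row γ ρ b) v Z - P (row γ ρ b) v Y| ≤ L := by
  have huw : u ≠ w := by rintro rfl; omega
  obtain ⟨R, hR⟩ : ∃ R : Om3 γ ρ → Om3 γ ρ → Prop,
    R = fun X X' => ∃ e, ∀ c, c ≠ u → c ≠ w → c ≠ e → X.1 c = X'.1 c := ⟨_, rfl⟩
  have hY : ∀ X ∈ cl (row γ ρ b) Y, io (X.1 u b) = 1 ∧ io (X.1 u (b + 1)) = 0 ∧
      io (X.1 u (b + 2)) = 0 ∧ io (X.1 w b) = 0 ∧ io (X.1 w (b + 1)) = 1 ∧
      io (X.1 w (b + 2)) = 1 := by
    intro X hX
    have c1 := colr X u b
    have c2 := colr X w b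
    have e1 := mem_cl.1 hX u
    have e2 := mem_cl.1 hX w
    rw [e1] at c1 ⊢
    rw [e2] at c2 ⊢
    have := io_bd (X.1 u (b + 1))
    have := io_bd (X.1 u (b + 2))
    have := io_bd (X.1 w (b + 1))
    have := io_bd (X.1 w (b + 2))
    omega
  have hZ : ∀ X ∈ cl (row γ ρ b) Z, io (X.1 u b) = 0 ∧ io (X.1 u (b + 1)) +
      io (X.1 u (b + 2)) = 1 ∧ io (X.1 w b) = 1 ∧ io (X.1 w (b + 1)) + io (X.1 w (b + 2)) = 1 := by
    intro X hX
    have c1 := colr X u b
    have c2 := colr X w b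
    have e1 := mem_cl.1 hX u
    have e2 := mem_cl.1 hX w
    rw [e1] at c1 ⊢
    rw [e2] at c2 ⊢
    omega
  have hrow : ∀ X ∈ cl (row γ ρ b) Z, ∀ X' ∈ cl (row γ ρ b) Y, ∀ c, c ≠ u → c ≠ w →
      X.1 c b = X'.1 c b := fun X hX X' hX' c c1 c2 => by
    rw [mem_cl.1 hX c, mem_cl.1 hX' c, hb c c1 c2]
  have hex : ∀ X ∈ cl (row γ ρ b) Z, ∃ X' ∈ cl (row γ ρ b) Y, R X X' := by
    intro X hX
    have hYY := hY Y (self_mem_cl _ _)
    have hXX := hZ X hX
    have : ∃ e, ∀ r, ∑ c ∈ ({u, w, e} : Finset C), io (X.1 c r) =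
        ∑ c ∈ ({u, w, e} : Finset C), io (Y.1 c r) := by
      have key : ∀ s s' : Fin 3, (∀ r, r = b ∨ r = s ∨ r = s') →
          (∀ (W : Om3 γ ρ) c, io (W.1 c b) + io (W.1 c s) + io (W.1 c s') = γ c) →
          io (X.1 u s) = 1 → io (X.1 w s) = 1 → io (X.1 u s') = 0 → io (X.1 w s') = 0 →
          io (Y.1 u s) = 0 → io (Y.1 w s) = 1 → io (Y.1 u s') = 0 → io (Y.1 w s') = 1 →
          ∃ e, ∀ r, ∑ c ∈ ({u, w, e} : Finset C), io (X.1 c r) =
            ∑ c ∈ ({u, w, e} : Finset C), io (Y.1 c r) := by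
        intro s s' hs hc b1 b2 b3 b4 b5 b6 b7 b8
        obtain ⟨e, -, e1, e2⟩ := exists_up (D := univ) (a := fun c => X.1 c s)
          (b := fun c => Y.1 c s) (by rw [X.2.2, Y.2.2]) (mem_univ u) (io_inj b1) (io_inj b5)
        have f1 : io (X.1 e s) = 0 := congrArg io e1
        have f2 : io (Y.1 e s) = 1 := congrArg io e2
        have n1 : u ≠ e := by rintro rfl; omega
        have n2 : w ≠ e := by rintro rfl; omega
        have f3 := congrArg io (hrow X hX Y (self_mem_cl _ _) e n1.symm n2.symm)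
        have g1 := hc X e
        have g2 := hc Y e
        refine ⟨e, fun r => ?_⟩
        rw [sum_three huw n1 n2, sum_three huw n1 n2]
        have := io_bd (X.1 e s')
        have := io_bd (Y.1 e s')
        rcases hs r with rfl | rfl | rfl <;> omega
      have := io_bd (X.1 u (b + 1))
      have := io_bd (X.1 w (b + 1))
      by_cases p1 : io (X.1 u (b + 1)) = 1 ∧ io (X.1 w (b + 1)) = 1
      · exact key (b + 1) (b + 2) (cases3 b) (fun W c => colr W c b) p1.1 p1.2 (by omega)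
          (by omega) (by omega) (by omega) (by omega) (by omega)
      by_cases p2 : io (X.1 u (b + 1)) = 0 ∧ io (X.1 w (b + 1)) = 0
      · exact key (b + 2) (b + 1) (fun r => by have := cases3 b r; tauto)
          (fun W c => by have := colr W c b; omega) (by omega) (by omega) (by omega)
          (by omega) (by omega) (by omega) (by omega) (by omega)
      refine ⟨w, fun r => ?_⟩
      simp only [Finset.insert_eq_of_mem (Finset.mem_singleton_self w), Finset.sum_pair huw]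
      rcases cases3 b r with rfl | rfl | rfl <;> omega
    obtain ⟨e, he⟩ := this
    refine ⟨patch X Y _ he, mem_cl.2 fun c => ?_, hR ▸ ⟨e, fun c c1 c2 c3 => ?_⟩⟩
    · simp only [patch]
      split_ifs with hc
      · rfl
      · simp only [Finset.mem_insert, Finset.mem_singleton, not_or] at hc
        exact hrow X hX Y (self_mem_cl _ _) c hc.1 hc.2.1
    · simp [patch, c1, c2, c3]
  have hc : ∀ X ∈ cl (row γ ρ b) Y, ∀ X' ∈ cl (row γ ρ b) Y,
      wt (cl (row γ ρ b) Z) (cl (row γ ρ b) Y) R X =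
        wt (cl (row γ ρ b) Z) (cl (row γ ρ b) Y) R X' := by
    intro X hX X' hX'
    refine (slice3 b Y).conn _ (fun x hx l hl l' hl' => ?_) hX hX'
    have sub : ∀ l ∈ fr b Y, l ≠ u ∧ l ≠ w ∧ l ∈ fr b Z := by
      intro l hl
      rw [mem_fr] at hl ⊢
      have n1 : l ≠ u := by rintro rfl; omega
      have n2 : l ≠ w := by rintro rfl; omega
      exact ⟨n1, n2, by rw [hb l n1 n2, hl]⟩
    obtain ⟨n1, n2, n3⟩ := sub l hl
    obtain ⟨n4, n5, n6⟩ := sub l' hl'
    refine wt_inv (fun x hx => (slice3 b Z).mem _ n3 _ n6 _ hx)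
      (fun x hx => (slice3 b Y).mem _ hl _ hl' _ hx) (fun x hx => (slice3 b Z).invol n3 n6 hx)
      (fun x hx => (slice3 b Y).invol hl hl' hx) (fun x hx y hy hxy => ?_) hx
    rw [hR] at hxy ⊢
    obtain ⟨e, he⟩ := hxy
    refine ⟨Equiv.swap l l' e, fun c c1 c2 c3 => funext fun r => ?_⟩
    rw [rsw_val' hx n3 n6, rsw_val' hy hl hl', hrow x hx y hy c c1 c2, he]
    · rw [Equiv.swap_apply_def]; split_ifs <;> assumption
    · rw [Equiv.swap_apply_def]; split_ifs <;> assumption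
    · intro h; apply c3; rw [← h, Equiv.swap_apply_self]
  have hLL : ∀ X ∈ cl (row γ ρ b) Z, ∀ X' ∈ cl (row γ ρ b) Y, R X X' →
      v X - v X' ≤ L ∧ v X' - v X ≤ L := by
    intro X hX X' hX' hxy
    have nb : ∀ X : Om3 γ ρ, (∀ c, c ≠ u → c ≠ w → X.1 c = X'.1 c) →
        v X - v X' ≤ L ∧ v X' - v X ≤ L := fun X h =>
      ⟨hL _ _ ⟨u, w, h⟩, hL _ _ ⟨u, w, fun c c1 c2 => (h c c1 c2).symm⟩⟩
    rw [hR] at hxy
    obtain ⟨e, he⟩ := hxy
    by_cases h0 : e = u ∨ e = w ∨ X.1 e = X'.1 e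
    · refine nb X fun c c1 c2 => ?_
      by_cases c3 : c = e
      · subst c3; tauto
      · exact he c c1 c2 c3
    push Not at h0
    obtain ⟨n1, n2, n3⟩ := h0
    have t3 : ∀ r, io (X.1 u r) + io (X.1 w r) + io (X.1 e r) =
        io (X'.1 u r) + io (X'.1 w r) + io (X'.1 e r) := by
      intro r
      have := sum_off X X' {u, w, e} r fun c hc => by
        simp only [Finset.mem_insert, Finset.mem_singleton, not_or] at hc
        rw [he c hc.1 hc.2.1 hc.2.2]
      rwa [sum_three huw n1.symm n2.symm, sum_three huw n1.symm n2.symm] at this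
    have : X'.1 e = X.1 u ∨ X'.1 e = X.1 w := by
      have q1 := hY X' hX'
      have q2 := hZ X hX
      have t0 := t3 b
      have t1 := t3 (b + 1)
      have t2 := t3 (b + 2)
      have := io_bd (X.1 u (b + 1))
      have := io_bd (X.1 w (b + 1))
      have := io_bd (X.1 e (b + 1))
      have := io_bd (X.1 e (b + 2))
      have := io_bd (X'.1 e (b + 1))
      have := io_bd (X'.1 e (b + 2))
      have := io_bd (X.1 e b)
      have n4 : ¬ (io (X.1 e b) = io (X'.1 e b) ∧ io (X.1 e (b + 1)) = io (X'.1 e (b + 1)) ∧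
          io (X.1 e (b + 2)) = io (X'.1 e (b + 2))) := fun h => n3 (fext3 b h.1 h.2.1 h.2.2)
      by_cases p : io (X.1 e b) = 0
      · exact Or.inl (fext3 b (by omega) (by omega) (by omega))
      · exact Or.inr (fext3 b (by omega) (by omega) (by omega))
    have fin : ∀ a, (a = u ∨ a = w) → X'.1 e = X.1 a → v X - v X' ≤ L ∧ v X' - v X ≤ L := by
      intro a ha h
      have hg : γ a = γ e := by rw [← X.2.1 a, ← X'.2.1 e, h]
      rw [← h1 a e hg X]
      refine nb _ fun c c1 c2 => ?_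
      by_cases c3 : c = e
      · simp [csw, c3, h]
      · have : c ≠ a := by rcases ha with rfl | rfl <;> assumption
        simp only [csw, Equiv.swap_apply_of_ne_of_ne this c3]
        exact he c c1 c2 c3
    rcases this with h | h
    exacts [fin u (Or.inl rfl) h, fin w (Or.inr rfl) h]
  have r1 := coupling v v L ⟨Z, self_mem_cl _ _⟩ hex hc
    (fun X hX X' hX' h => by linarith [(hLL X hX X' hX' h).1])
  have r2 := coupling (-v) (-v) L ⟨Z, self_mem_cl _ _⟩ hex hc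
    (fun X hX X' hX' h => by simp only [Pi.neg_apply]; linarith [(hLL X hX X' hX' h).2])
  rw [← P_apply, ← P_apply] at r1 r2
  simp only [map_neg, Pi.neg_apply] at r2
  rw [abs_le]
  constructor <;> linarith

lemma two_cases (a b c d : Fin 3 → Bool) {g g' : ℤ}
    (h : ∀ r, io (a r) + io (b r) = io (c r) + io (d r))
    (ha : io (a 0) + io (a (0 + 1)) + io (a (0 + 2)) = g)
    (hc : io (c 0) + io (c (0 + 1)) + io (c (0 + 2)) = g)
    (hb : io (b 0) + io (b (0 + 1)) + io (b (0 + 2)) = g')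
    (hd : io (d 0) + io (d (0 + 1)) + io (d (0 + 2)) = g') :
    (a = c ∧ b = d) ∨ (a = d ∧ b = c) ∨ (g = 1 ∧ g' = 2) ∨ (g' = 1 ∧ g = 2) := by
  have key : ∀ a0 a1 a2 b0 b1 b2 c0 c1 c2 d0 d1 d2 : Bool, io a0 + io b0 = io c0 + io d0 →
      io a1 + io b1 = io c1 + io d1 → io a2 + io b2 = io c2 + io d2 →
      io c0 + io c1 + io c2 = io a0 + io a1 + io a2 →
      ((a0 = c0 ∧ a1 = c1 ∧ a2 = c2) ∧ (b0 = d0 ∧ b1 = d1 ∧ b2 = d2)) ∨
      ((a0 = d0 ∧ a1 = d1 ∧ a2 = d2) ∧ (b0 = c0 ∧ b1 = c1 ∧ b2 = c2)) ∨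
      (io a0 + io a1 + io a2 = 1 ∧ io b0 + io b1 + io b2 = 2) ∨
      (io b0 + io b1 + io b2 = 1 ∧ io a0 + io a1 + io a2 = 2) := by decide +kernel
  have f : ∀ {p q : Fin 3 → Bool}, p 0 = q 0 ∧ p (0 + 1) = q (0 + 1) ∧ p (0 + 2) = q (0 + 2) →
      p = q := fun h => fext3 0 (congrArg io h.1) (congrArg io h.2.1) (congrArg io h.2.2)
  subst ha hb
  rcases key _ _ _ _ _ _ _ _ _ _ _ _ (h 0) (h (0 + 1)) (h (0 + 2)) hc with e | e | e | e
  · exact Or.inl ⟨f e.1, f e.2⟩
  · exact Or.inr (Or.inl ⟨f e.1, f e.2⟩)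
  · exact Or.inr (Or.inr (Or.inl e))
  · exact Or.inr (Or.inr (Or.inr e))

lemma step2 {v : Om3 γ ρ → ℝ} {μ : ℝ} (hμ : 2 < μ)
    (hv : ∀ Z, ∑ r, P (row γ ρ r) v Z = μ * v Z) {X X' : Om3 γ ρ} (h : Nb X X') :
    v X ≤ v X' := by
  classical
  obtain ⟨⟨Z, Y⟩, hm, hmax⟩ := Finset.exists_max_image
    (univ.filter fun q : Om3 γ ρ × Om3 γ ρ => Nb q.1 q.2) (fun q => v q.1 - v q.2)
    ⟨(X, X'), by simpa using h⟩
  simp only [Finset.mem_filter, mem_univ, true_and] at hm hmax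
  have hL : ∀ X X', Nb X X' → v X - v X' ≤ v Z - v Y := fun X X' h => hmax (X, X') h
  have h1 := fun u w (h : γ u = γ w) Z => step1 hμ hv h Z
  suffices v Z - v Y ≤ 0 by linarith [hL X X' h]
  by_contra hpos
  have main : ∀ u w, (∀ c, c ≠ u → c ≠ w → Z.1 c = Y.1 c) → γ u = 1 → γ w = 2 → False := by
    intro u w h a1 a2
    have huw : u ≠ w := by rintro rfl; omega
    have tc := fun r => two_col huw r fun c c1 c2 => congrFun (h c c1 c2) r
    have eq : ∀ r, io (Z.1 u r) = io (Y.1 u r) → P (row γ ρ r) v Z - P (row γ ρ r) v Y = 0 := by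
      intro r hr
      rw [sub_eq_zero]
      refine P_congr v fun c => ?_
      by_cases c1 : c = u
      · subst c1; exact io_inj hr
      by_cases c2 : c = w
      · subst c2; exact io_inj (by have := tc r; omega)
      · rw [h c c1 c2]
    obtain ⟨r0, hr0⟩ : ∃ r0, io (Z.1 u r0) = io (Y.1 u r0) := by
      by_contra hc
      push Not at hc
      have := colr Z u 0
      have := colr Y u 0
      have := hc 0
      have := hc (0 + 1)
      have := hc (0 + 2)
      have := io_bd (Z.1 u 0)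
      have := io_bd (Z.1 u (0 + 1))
      have := io_bd (Z.1 u (0 + 2))
      have := io_bd (Y.1 u 0)
      have := io_bd (Y.1 u (0 + 1))
      have := io_bd (Y.1 u (0 + 2))
      omega
    refine hpos (max3 (a := fun r => P (row γ ρ r) v Z - P (row γ ρ r) v Y) hμ ?_ (fun r => ?_)
      (eq r0 hr0))
    · rw [Finset.sum_sub_distrib, hv, hv]; ring
    · have := tc r
      have := io_bd (Z.1 u r)
      have := io_bd (Z.1 w r)
      have := io_bd (Y.1 u r)
      have := io_bd (Y.1 w r)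
      by_cases e : io (Z.1 u r) = io (Y.1 u r)
      · rw [eq r e]; linarith
      by_cases e' : io (Z.1 u r) = 0
      · exact (abs_le.1 (CL h1 hL r Z Y u w (fun c c1 c2 => by rw [h c c1 c2]) e' (by omega) a1
          (by omega) (by omega) a2)).2
      · have := (abs_le.1 (CL h1 hL r Y Z u w (fun c c1 c2 => by rw [h c c1 c2]) (by omega)
          (by omega) a1 (by omega) (by omega) a2)).1
        linarith
  obtain ⟨u, w, h⟩ := hm
  have hne : Z ≠ Y := by rintro rfl; simp at hpos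
  by_cases huw : u = w
  · subst huw
    refine hne (Subtype.ext (funext fun c => ?_))
    by_cases c1 : c = u
    · subst c1
      funext r
      have := sum_off Z Y {c} r fun c' hc => by rw [h c' (by simpa using hc) (by simpa using hc)]
      exact io_inj (by simpa using this)
    · exact h c c1 c1
  have tc := fun r => two_col huw r fun c c1 c2 => congrFun (h c c1 c2) r
  rcases two_cases (Z.1 u) (Z.1 w) (Y.1 u) (Y.1 w) tc (colr Z u 0) (colr Y u 0) (colr Z w 0)
    (colr Y w 0) with e | e | e | e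
  · refine hne (Subtype.ext (funext fun c => ?_))
    by_cases c1 : c = u
    · rw [c1, e.1]
    by_cases c2 : c = w
    · rw [c2, e.2]
    · exact h c c1 c2
  · have hg : γ u = γ w := by rw [← Z.2.1 u, ← Y.2.1 w, e.1]
    have : Y = csw hg Z := by
      refine Subtype.ext (funext fun c => ?_)
      simp only [csw]
      by_cases c1 : c = u
      · rw [c1, Equiv.swap_apply_left, e.2]
      by_cases c2 : c = w
      · rw [c2, Equiv.swap_apply_right, e.1]
      · rw [Equiv.swap_apply_of_ne_of_ne c1 c2, h c c1 c2]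
    rw [this, h1] at hpos
    simp at hpos
  · exact main u w h e.1 e.2
  · exact main w u (fun c c1 c2 => h c c2 c1) e.1 e.2

theorem T0 {v : Om3 γ ρ → ℝ} {μ : ℝ} (hμ : 2 < μ)
    (hv : ∀ Z, ∑ r, P (row γ ρ r) v Z = μ * v Z) (b : Fin 3) (Z : Om3 γ ρ) :
    P (row γ ρ b) v Z = v Z := by
  refine P_const fun Y hY => (slice3 b Z).conn v (fun x hx l hl u hu => ?_) (mem_cl.2 hY)
    (self_mem_cl _ _)
  have : ∀ c, c ≠ l → c ≠ u → (rsw b l u x).1 c = x.1 c := by
    intro c c1 c2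
    funext r
    rw [rsw_val' hx hl hu, Equiv.swap_apply_of_ne_of_ne c1 c2]
    split_ifs with e
    · rw [e]
    · rfl
  exact le_antisymm (step2 hμ hv ⟨l, u, this⟩)
    (step2 hμ hv ⟨l, u, fun c c1 c2 => (this c c1 c2).symm⟩)

end Vale.Agent.P335
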