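import Vale.Agent.P335.Disj

namespace Vale.Agent.P335

open Finset

variable {V : Type*} [Fintype V] [DecidableEq V] {d : V → ℤ}
variable {U : Type*} [Fintype U] [DecidableEq U] (e : Fin 3 ⊕ U ≃ V)

/-- the three row matrix of a graph -/
def Zm (x : V → V → Bool) : Option U → Fin 3 → Bool
  | none, r => !x (e (.inl (r + 1))) (e (.inl (r + 2)))
  | some u, r => x (e (.inl r)) (e (.inr u))

/-- assembling a graph on the sum type -/
def asm' (x : V → V → Bool) (M : Option U → Fin 3 → Bool) : Fin 3 ⊕ U → Fin 3 ⊕ U → Bool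
  | .inl r, .inl s => if r = s then false else !M none (-r - s)
  | .inl r, .inr u => M (some u) r
  | .inr u, .inl s => M (some u) s
  | .inr u, .inr w => x (e (.inr u)) (e (.inr w))

lemma io_not (b : Bool) : io (!b) = 1 - io b := by cases b <;> simp

omit [DecidableEq V] [DecidableEq U] in
lemma sum_e (f : V → ℤ) : ∑ b, f b = ∑ r, f (e (.inl r)) + ∑ u, f (e (.inr u)) := by
  rw [← Equiv.sum_comp e, Fintype.sum_sum_type]

omit [DecidableEq V] [DecidableEq U] in
lemma degA {x : V → V → Bool} (hs : ∀ a b, x a b = x b a) (hi : ∀ a, x a a = false) (r : Fin 3) :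
    ∑ b, io (x (e (.inl r)) b) = ∑ c, io (Zm e x c r) + 2 - ∑ s, io (Zm e x none s) := by
  rw [sum_e e, Fintype.sum_option, sum3 _ r, sum3 _ r]
  have a1 : r + 1 + 1 = r + 2 := by revert r; decide
  have a2 : r + 1 + 2 = r := by revert r; decide
  have a3 : r + 2 + 1 = r := by revert r; decide
  have a4 : r + 2 + 2 = r + 1 := by revert r; decide
  simp only [Zm, io_not, hi, io_false, a1, a2, a3, a4, hs (e (.inl (r + 2))) (e (.inl r))]
  ring

omit [DecidableEq V] [DecidableEq U] in
lemma degB {x : V → V → Bool} (hs : ∀ a b, x a b = x b a) (u : U) :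
    ∑ b, io (x (e (.inr u)) b) =
      ∑ s, io (Zm e x (some u) s) + ∑ w, io (x (e (.inr u)) (e (.inr w))) := by
  rw [sum_e e]
  simp only [Zm, hs (e (.inr u))]

omit [Fintype V] [DecidableEq V] [Fintype U] [DecidableEq U] in
lemma Zm_asm (x : V → V → Bool) (M : Option U → Fin 3 → Bool) :
    Zm e (fun a b => asm' e x M (e.symm a) (e.symm b)) = M := by
  funext c r
  rcases c with _ | u
  · have a1 : r + 1 ≠ r + 2 := by revert r; decide
    have a2 : -(r + 1) - (r + 2) = r := by revert r; decide
    simp only [Zm, asm', Equiv.symm_apply_apply, a1, a2, if_false, Bool.not_not]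
  · simp [Zm, asm']

/-- column sums of the three row matrix -/
def gam (x : Gr d) (c : Option U) : ℤ := ∑ r, io (Zm e x.1 c r)

/-- row sums of the three row matrix -/
def rho (x : Gr d) (r : Fin 3) : ℤ := ∑ c, io (Zm e x.1 c r)

/-- graph assembled from a three row matrix -/
def asm (x : Gr d) (M : Om3 (gam e x) (rho e x)) : Gr d :=
  ⟨fun a b => asm' e x.1 M.1 (e.symm a) (e.symm b), by
    have hs : ∀ a b, asm' e x.1 M.1 (e.symm a) (e.symm b) =
        asm' e x.1 M.1 (e.symm b) (e.symm a) := by
      intro a b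
      rcases e.symm a with r | u <;> rcases e.symm b with s | w <;> simp only [asm']
      · have : -r - s = -s - r := by abel
        simp only [this, eq_comm]
      · exact x.sy _ _
    have hi : ∀ a, asm' e x.1 M.1 (e.symm a) (e.symm a) = false := by
      intro a
      rcases e.symm a with r | u <;> simp [asm', x.2.2.1]
    refine ⟨hs, hi, fun a => ?_⟩
    obtain ⟨a, rfl⟩ := e.surjective a
    rw [← x.2.2.2]
    rcases a with r | u
    · rw [degA e hs hi, degA e x.2.1 x.2.2.1, Zm_asm, M.2.1, M.2.2]; rfl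
    · rw [degB e hs, degB e x.2.1, Zm_asm, M.2.1]
      simp only [Equiv.symm_apply_apply, asm']; rfl⟩

omit [DecidableEq V] [DecidableEq U] in
lemma asm_val (x : Gr d) (M : Om3 (gam e x) (rho e x)) (a b : Fin 3 ⊕ U) :
    (asm e x M).1 (e a) (e b) = asm' e x.1 M.1 a b := by simp [asm]

omit [DecidableEq V] [DecidableEq U] in
lemma Zm_asm' (x : Gr d) (M : Om3 (gam e x) (rho e x)) : Zm e (asm e x M).1 = M.1 :=
  Zm_asm e _ _

omit [DecidableEq V] [DecidableEq U] in
lemma asm_Zm (x y : Gr d) (h : ∀ u w, y.1 (e (.inr u)) (e (.inr w)) = x.1 (e (.inr u)) (e (.inr w))) :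
    ∃ M : Om3 (gam e x) (rho e x), M.1 = Zm e y.1 ∧ asm e x M = y := by
  have c1 : ∀ u, gam e y (some u) = gam e x (some u) := by
    intro u
    have a := degB e x.2.1 u
    have b := degB e y.2.1 u
    rw [x.2.2.2] at a
    rw [y.2.2.2] at b
    simp only [h] at b
    unfold gam; omega
  have c2 : ∀ (x : Gr d) r, d (e (.inl r)) = rho e x r + 2 - gam e x none := fun x r => by
    rw [← x.2.2.2, degA e x.2.1 x.2.2.1]; rfl
  have c3 : ∀ x : Gr d, ∑ r, rho e x r = gam e x none + ∑ u, gam e x (some u) := fun x => by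
    rw [← Fintype.sum_option (fun c => gam e x c)]
    exact Finset.sum_comm
  have c4 : gam e y none = gam e x none := by
    have a := c3 x
    have b := c3 y
    simp only [c1] at b
    rw [Fin.sum_univ_three] at a b
    have := c2 x 0
    have := c2 x 1
    have := c2 x 2
    have := c2 y 0
    have := c2 y 1
    have := c2 y 2
    omega
  refine ⟨⟨Zm e y.1, fun c => ?_, fun r => ?_⟩, rfl, Subtype.ext (funext fun a => funext fun b => ?_)⟩
  · rcases c with _ | u
    exacts [c4, c1 u]
  · have := c2 x r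
    have := c2 y r
    change rho e y r = _
    omega
  · obtain ⟨a, rfl⟩ := e.surjective a
    obtain ⟨b, rfl⟩ := e.surjective b
    refine (asm_val e x _ a b).trans ?_
    rcases a with r | u <;> rcases b with s | w <;> simp only [asm', Zm]
    · split_ifs with c
      · rw [c, y.2.2.1]
      · have : (-r - s + 1 = r ∧ -r - s + 2 = s) ∨ (-r - s + 1 = s ∧ -r - s + 2 = r) := by
          revert r s; decide
        rcases this with t | t
        · rw [t.1, t.2, Bool.not_not]
        · rw [t.1, t.2, Bool.not_not, y.sy]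
    · exact y.sy _ _
    · exact (h u w).symm

omit [DecidableEq V] [DecidableEq U] in
lemma P_asm (x : Gr d) (v : Gr d → ℝ) (r : Fin 3) (M : Om3 (gam e x) (rho e x)) :
    P (row _ _ r) (v ∘ asm e x) M =
      P (agree d (Fp (e (.inl (r + 1))) (e (.inl (r + 2))))) v (asm e x M) := by
  refine P_eq_of_bij (asm e x) (fun Y hY a b h1 h2 => ?_) (fun Y Z _ _ h => Subtype.ext ?_)
    (fun y hy => ?_) (fun _ _ => rfl)
  · obtain ⟨a, rfl⟩ := e.surjective a
    obtain ⟨b, rfl⟩ := e.surjective b
    rw [asm_val, asm_val]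
    simp only [Fp, ne_eq, EmbeddingLike.apply_eq_iff_eq] at h1 h2
    rcases a with s | u <;> rcases b with t | w <;> simp only [asm']
    · simp only [Sum.inl.injEq] at h1 h2
      split_ifs with c
      · rfl
      · have : -s - t = r := by clear hY; revert r s t; decide
        rw [this, hY]
    · have : s = r := by
        simp only [Sum.inl.injEq, reduceCtorEq, not_false_eq_true, and_self, and_true] at h1
        have := cases3 r s; tauto
      rw [this, hY]
    · have : t = r := by
        simp only [Sum.inl.injEq, reduceCtorEq, not_false_eq_true, and_self, and_true] at h2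
        have := cases3 r t; tauto
      rw [this, hY]
  · rw [← Zm_asm' e x Y, h, Zm_asm']
  · obtain ⟨Y, h1, h2⟩ := asm_Zm e x y fun u w => by
      rw [hy _ _ (by simp [Fp]) (by simp [Fp]), asm_val]; rfl
    refine ⟨Y, fun c => ?_, h2⟩
    rw [h1, ← Zm_asm' e x M]
    rcases c with _ | u
    · simp only [Zm]
      rw [hy _ _ (by simp [Fp]) (by simp [Fp])]
    · simp only [Zm]
      rw [hy _ _ (by simp [Fp, (ne31 r).symm, (ne32 r).symm]) (by simp [Fp])]

omit [DecidableEq V] in
lemma triple_e (f : Gr d → ℝ) :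
    ∑ r : Fin 3, ip (Q (e (.inl (r + 1))) (e (.inl (r + 2))) f) (Q (e (.inl (r + 1))) (e (.inl (r + 2))) f)
      ≤ ip (∑ r : Fin 3, Q (e (.inl (r + 1))) (e (.inl (r + 2))) f)
        (∑ r : Fin 3, Q (e (.inl (r + 1))) (e (.inl (r + 2))) f) := by
  obtain ⟨T, hT⟩ : ∃ T : (Gr d → ℝ) →ₗ[ℝ] (Gr d → ℝ), T = ∑ r : Fin 3, (LinearMap.id -
    P (agree d (Fp (e (.inl (r + 1))) (e (.inl (r + 2)))))) := ⟨_, rfl⟩
  have hT' : ∀ f, T f = ∑ r : Fin 3, Q (e (.inl (r + 1))) (e (.inl (r + 2))) f := fun f => by
    simp [hT, Q, LinearMap.sum_apply]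
  have := L2 T (fun f g => by
    simp only [hT', ip_sum_left, ip_sum_right, Q, ip_sub_left, ip_sub_right, P_sa]) f (by
    intro v lam hv h
    by_cases hl : 1 ≤ lam
    · exact Or.inl hl
    right
    have z : T v = 0 := by
      rw [hT']
      refine Finset.sum_eq_zero fun r _ => funext fun x => ?_
      obtain ⟨M, -, hM⟩ := asm_Zm e x x fun _ _ => rfl
      have := T0 (v := v ∘ asm e x) (μ := 3 - lam) (by linarith) (fun Z => by
        have := congrFun h (asm e x Z)
        simp only [hT', Q, Finset.sum_apply, Pi.sub_apply, Pi.smul_apply, smul_eq_mul,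
          Finset.sum_sub_distrib, Finset.sum_const, Finset.card_univ, Fintype.card_fin,
          nsmul_eq_mul] at this
        simp only [P_asm, Function.comp_apply]
        push_cast at this
        linarith) r M
      rw [P_asm, Function.comp_apply, hM] at this
      simp [Q, this]
    rw [z] at h
    exact (smul_eq_zero.1 h.symm).resolve_right hv)
  rw [hT'] at this
  refine le_trans (le_of_eq ?_) this
  rw [ip_sum_right]
  refine Finset.sum_congr rfl fun r _ => ?_
  unfold Q
  rw [ip_sub_left, P_sa, map_sub, P_idem, sub_self, ip_zero_right, sub_zero]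

omit [DecidableEq V] in
lemma Q_symm (i j : V) (f : Gr d → ℝ) : Q i j f = Q j i f := by
  have : Fp i j = Fp j i := by
    funext a b; unfold Fp; grind
  unfold Q; rw [this]

theorem triple {i j k : V} (h1 : i ≠ j) (h2 : i ≠ k) (h3 : j ≠ k) (f : Gr d → ℝ) :
    0 ≤ ip (Q i j f) (Q i k f) + ip (Q j i f) (Q j k f) + ip (Q k i f) (Q k j f) := by
  classical
  have inj : Function.Injective (![i, j, k] : Fin 3 → V) := by
    intro a b h
    fin_cases a <;> fin_cases b <;> simp_all [eq_comm]
  let e : Fin 3 ⊕ {u // u ∉ Set.range (![i, j, k] : Fin 3 → V)} ≃ V :=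
    (Equiv.sumCongr (Equiv.ofInjective _ inj) (Equiv.refl _)).trans (Equiv.sumCompl _)
  have he : ∀ r, e (.inl r) = (![i, j, k] : Fin 3 → V) r := fun r => rfl
  have := triple_e e f
  simp only [he, Fin.sum_univ_three, ip_add_left, ip_add_right] at this
  change ip (Q j k f) (Q j k f) + ip (Q k i f) (Q k i f) + ip (Q i j f) (Q i j f) ≤
    ip (Q j k f) (Q j k f) + ip (Q k i f) (Q j k f) + ip (Q i j f) (Q j k f) +
    (ip (Q j k f) (Q k i f) + ip (Q k i f) (Q k i f) + ip (Q i j f) (Q k i f)) +
    (ip (Q j k f) (Q i j f) + ip (Q k i f) (Q i j f) + ip (Q i j f) (Q i j f)) at this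
  rw [Q_symm i k, Q_symm j i, Q_symm k j]
  have := ip_comm (Q j k f) (Q k i f)
  have := ip_comm (Q j k f) (Q i j f)
  have := ip_comm (Q k i f) (Q i j f)
  linarith

end Vale.Agent.P335
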